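import Vale.Agent.P233.Bd3.B1

/-! P242, package A-GL2 (helper200), part 1: integration by parts against a weight. No kernel. -/

set_option linter.all false

open MeasureTheory Filter Topology Set
open scoped ENNReal NNReal

namespace Vale.Agent.P242.H200

open Vale.Agent.P233

variable {M : Type*} [MeasurableSpace M] {m : Measure M} {C : Calc m}

theorem abs_ae' (f : M →ₘ[m] ℝ) : ⇑|f| =ᵐ[m] fun x => |f x| := AEEqFun.coeFn_abs f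

/-- `∫ φ ⟨∇f,∇g⟩ = -∫ (f - c₀) (φ Δg + ⟨∇φ,∇g⟩)` -/
theorem ibp (hC : IsDir C) {φ f g h : M →ₘ[m] ℝ} (hφ : φ ∈ C.A) (hφ1 : MemLp φ 1 m)
    (hf : f ∈ C.A) (hg : C.IsLap g h) (c₀ : ℝ) :
    I (φ * C.Γ f g) = -I ((f - c₀ • (1 : M →ₘ[m] ℝ)) * (φ * h + C.Γ φ g)) := by
  have hgW := hg.1
  have hh2 := hg.2.1
  have i1 : MemLp (φ * C.Γ f g : M →ₘ[m] ℝ) 1 m := mem_mul_top hφ.2 (hC.Γ_mem1 hf.1 hgW)
  have i2 : MemLp (f * C.Γ φ g : M →ₘ[m] ℝ) 1 m := mem_mul_top hf.2 (hC.Γ_mem1 hφ.1 hgW)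
  have i3 : MemLp (φ * h : M →ₘ[m] ℝ) 1 m := mem_mul_22 (hC.memLp _ hφ.1) hh2
  have i4 : MemLp (C.Γ φ g) 1 m := hC.Γ_mem1 hφ.1 hgW
  have i5 : MemLp (f * (φ * h) : M →ₘ[m] ℝ) 1 m := mem_mul_top hf.2 i3
  have hA := hC.mul_mem_A hφ hf
  have e1 : I (C.Γ g (φ * f)) = -I (h * (φ * f)) := hg.2.2 _ hA.1
  have e2 : I (C.Γ g φ) = -I (h * φ) := hg.2.2 _ hφ.1
  rw [hC.Γ_mul_right hφ hf hgW, hC.symm g hgW f hf.1, hC.symm g hgW φ hφ.1, I_add i1 i2] at e1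
  rw [hC.symm g hgW φ hφ.1] at e2
  have e3 : (f - c₀ • (1 : M →ₘ[m] ℝ)) * (φ * h + C.Γ φ g)
      = (f * (φ * h) + f * C.Γ φ g) - c₀ • (φ * h + C.Γ φ g) := by
    rw [sub_mul, smul_mul_assoc, one_mul, mul_add]
  have e4 : h * (φ * f) = f * (φ * h) := by ring
  have e5 : h * φ = φ * h := mul_comm _ _
  rw [e3, I_sub (mem_add i5 i2) (mem_smul _ (mem_add i3 i4)), I_add i5 i2, I_smul, I_add i3 i4]
  rw [e4] at e1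
  rw [e5] at e2
  linear_combination e1 - c₀ * e2

/-- the bound that follows, with `φ'` a weight that dominates `φ` and `|∇φ|` -/
theorem ibp_bound (hC : IsDir C) {φ φ' f g h : M →ₘ[m] ℝ} {a ℓ L₁ L₂ c₀ : ℝ} (hφ : φ ∈ C.A)
    (hφ1 : MemLp φ 1 m) (hf : f ∈ C.A) (hg : C.IsLap g h) (hL₁ : 0 ≤ L₁) (hL₂ : 0 ≤ L₂)
    (hℓ : 0 ≤ ℓ) (ha : 0 ≤ a) (hφ' : ∀ᵐ x ∂m, 0 ≤ φ' x) (hφ'1 : MemLp φ' 1 m)
    (h1 : ∀ᵐ x ∂m, |φ x| ≤ a * φ' x)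
    (h2 : ∀ᵐ x ∂m, C.Γ φ φ x ≤ (ℓ * φ' x) ^ 2) (h3 : ∀ᵐ x ∂m, C.Γ g g x ≤ L₁ ^ 2)
    (h4 : ∀ᵐ x ∂m, |h x| ≤ L₂) :
    |I (φ * C.Γ f g)| ≤ (a * L₂ + ℓ * L₁) * I (φ' * |f - c₀ • (1 : M →ₘ[m] ℝ)|) := by
  set F : M →ₘ[m] ℝ := f - c₀ • (1 : M →ₘ[m] ℝ) with hF
  have hFt : MemLp F ∞ m := mem_sub hf.2 (mem_smul _ mem_top_one)
  have hFa : MemLp (|F| : M →ₘ[m] ℝ) ∞ m :=
    mem_of_le hFt (by filter_upwards [abs_ae' F] with x hx; rw [hx, abs_abs])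
  have j1 : MemLp (φ' * |F| : M →ₘ[m] ℝ) 1 m := mem_top_mul hφ'1 hFa
  have hgW := hg.1
  rw [ibp hC hφ hφ1 hf hg c₀, abs_neg, ← hF, ← I_smul]
  have j2 : MemLp (F * (φ * h + C.Γ φ g) : M →ₘ[m] ℝ) 1 m :=
    mem_mul_top hFt (mem_add (mem_mul_22 (hC.memLp _ hφ.1) hg.2.1) (hC.Γ_mem1 hφ.1 hgW))
  unfold I
  refine (abs_integral_le_integral_abs).trans (integral_mono_ae (int_of_mem j2).abs
    (int_of_mem (mem_smul _ j1)) ?_)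
  filter_upwards [mul_ae F (φ * h + C.Γ φ g), add_ae (φ * h) (C.Γ φ g), mul_ae φ h,
    smul_ae (φ' * |F|) (a * L₂ + ℓ * L₁), mul_ae φ' |F|, abs_ae' F, hφ', h1, h2, h3, h4,
    hC.Γ_abs_ae hφ.1 hgW] with x b1 b2 b3 b4 b5 b6 b7 b8 b9 b10 b11 b12
  simp only [b1, b2, b3, b4, b5, b6]
  rw [abs_mul]
  have c1 : Real.sqrt (C.Γ φ φ x) ≤ ℓ * φ' x := by
    rw [← Real.sqrt_sq (mul_nonneg hℓ b7)]
    exact Real.sqrt_le_sqrt b9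
  have c2 : Real.sqrt (C.Γ g g x) ≤ L₁ := by
    rw [← Real.sqrt_sq hL₁]
    exact Real.sqrt_le_sqrt b10
  have c3 : |C.Γ φ g x| ≤ ℓ * φ' x * L₁ :=
    b12.trans (mul_le_mul c1 c2 (Real.sqrt_nonneg _) (mul_nonneg hℓ b7))
  have c4 : |φ x * h x| ≤ a * φ' x * L₂ := by
    rw [abs_mul]
    exact mul_le_mul b8 b11 (abs_nonneg _) (mul_nonneg ha b7)
  have c5 : |φ x * h x + C.Γ φ g x| ≤ (a * L₂ + ℓ * L₁) * φ' x := by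
    refine (abs_add_le _ _).trans ?_
    linarith
  calc |F x| * |φ x * h x + C.Γ φ g x| ≤ |F x| * ((a * L₂ + ℓ * L₁) * φ' x) :=
        mul_le_mul_of_nonneg_left c5 (abs_nonneg _)
    _ = (a * L₂ + ℓ * L₁) * (φ' x * |F x|) := by ring

end Vale.Agent.P242.H200
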