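import Vale.Agent.P242.H71.HFDef
import Vale.Agent.P242.H100.Pair

/-! P242, package A-GL2 (helper200): (h5) at one scale in the frozen vocabulary, from the facts at
the two vertices. Level: any `t ≤ ρ²`. -/

set_option linter.all false

open MeasureTheory Filter Topology Set Metric
open scoped ENNReal NNReal InnerProductSpace

universe u

namespace Vale.Agent.P242.H200

open Vale.Agent.P233 Vale.Agent.P233.RA Vale.Agent.P242.H990 Vale.Agent.P242.H71
open Vale.Agent.P242.H100 (PF PairHyp)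

theorem PF.of_symBil {n : ℕ} {F : E n → E n → ℝ} (h : SymBil F) (h0 : ∀ c, 0 ≤ F c c) : PF F :=
  ⟨h.add, h.smul, h.symm, h0⟩

/-- the facts at the pair `(x,q)` at the time `t`: `A` is the matrix at `q`, `c` the affine part of
`(b_q - b_x)/√t`; `L` the Lipschitz constant of `u` near `x` -/
structure PIn {M : Type u} [MetricSpace M] [MeasurableSpace M] (m : Measure M) {n : ℕ} (K : ℝ)
    (p : ℝ → M → M → ℝ) (Q A₀ ρ t : ℝ) (u : Fin n → M →ₘ[m] ℝ) (uu : M → E n) (x q : M)
    (κ ε L : ℝ) (A : E n → E n) (c : E n) : Prop where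
  rel : ∀ v, |Gm m p u t x c v - (√t)⁻¹ * (⟪v, uu x - uu q⟫_ℝ + ⟪A v, uu x - uu q⟫_ℝ)| ≤
    κ * √(Dt m n K p Q A₀ ρ t x + Dt m n K p Q A₀ ρ t q) * √(Gm m p u t x v v)
  r2 : t * gm m K p u t x c c ≤ κ * (Dt m n K p Q A₀ ρ t x + Dt m n K p Q A₀ ρ t q)
  e6 : ∀ v, Nt m K p u Q A₀ ρ (1 / 4) t x v v ≤
    κ * (t * gm m K p u t x v v + Dt m n K p Q A₀ ρ t x * Gm m p u t x v v)
  anti : ∀ v w, |Gm m p u t q (A v) w - Gm m p u t q v (A w)| ≤
    κ * √(Dt m n K p Q A₀ ρ t q) *
      (√(Nt m K p u Q A₀ ρ (3 / 8) t q v v + Dt m n K p Q A₀ ρ t q * Gm m p u t q v v)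
          * √(Gm m p u t q w w)
        + √(Nt m K p u Q A₀ ρ (3 / 8) t q w w + Dt m n K p Q A₀ ρ t q * Gm m p u t q w w)
          * √(Gm m p u t q v v))
    + κ * √ε * (√(Gm m p u t q (A v) (A v))
          * √(Nt m K p u Q A₀ ρ (3 / 8) t q w w + Dt m n K p Q A₀ ρ t q * Gm m p u t q w w)
        + √(Gm m p u t q (A w) (A w))
          * √(Nt m K p u Q A₀ ρ (3 / 8) t q v v + Dt m n K p Q A₀ ρ t q * Gm m p u t q v v))
  abd : ∀ v, √(Gm m p u t q (A v) (A v)) ≤ κ * √ε *
    √(Nt m K p u Q A₀ ρ (3 / 8) t q v v + Dt m n K p Q A₀ ρ t q * Gm m p u t q v v)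
  lip : ∀ v, |⟪v, uu x - uu q⟫_ℝ| ≤ L * √t * √(Gm m p u t x v v)

variable {M : Type u} [MetricSpace M] [MeasurableSpace M] {m : Measure M} {n : ℕ} {K : ℝ} {o : M}
  {p : ℝ → M → M → ℝ} {R' Q A₀ C₀ C₁ Λ B εF ρ : ℝ} {u : Fin n → M →ₘ[m] ℝ} {uu : M → E n}

/-- **(h5) at one pair and one time.** -/
theorem h5_pair (hF : HF m K o p R' Q A₀ C₀ C₁ Λ B εF ρ u) {x q : M} (hx : x ∈ ball o (R' * ρ))
    (hq : q ∈ ball o (R' * ρ)) {t : ℝ} (ht : 0 < t) (htρ : t ≤ ρ ^ 2) (hd : dist x q ≤ C₀ * √t)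
    (hC₀ : 0 ≤ C₀) (hC₁ : 0 ≤ C₁) (hεF : εF ≤ 1)
    (hDx : 0 ≤ Dt m n K p Q A₀ ρ t x) (hDq : 0 ≤ Dt m n K p Q A₀ ρ t q)
    (bS : SymBil (gm m K p u t x)) (S0 : ∀ v, 0 ≤ gm m K p u t x v v)
    (hN : ∀ v, Nt m K p u Q A₀ ρ (3 / 8) t q v v ≤ Nt m K p u Q A₀ ρ (1 / 4) t q v v)
    {κ ε L : ℝ} {A : E n → E n} {c : E n} (hP : PIn m K p Q A₀ ρ t u uu x q κ ε L A c)
    (hTT : ∀ v, t * gm m K p u t x v v ≤ ε * Gm m p u t x v v) (hε : 0 ≤ ε)
    (hL : 0 ≤ L)
    {k : ℝ} (hk2 : 2 ≤ k) (hkκ : κ ≤ k) (hkL : L ^ 2 ≤ k) (hkC : C₁ ^ 2 ≤ k)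
    (hkC' : 1 + C₁ * C₀ ≤ k) (hκ : 0 ≤ κ) (hsm : 4096 * k ^ 15 * ε ≤ 1)
    {w : E n} (hw : ∀ v, Gm m p u t x w v = ⟪v, uu x - uu q⟫_ℝ) :
    Nt m K p u Q A₀ ρ (1 / 4) t x w w ≤
      640 * k ^ 10 * t * (Dt m n K p Q A₀ ρ t x + Dt m n K p Q A₀ ρ t q) := by
  have hk0 : 0 < k := by linarith
  have hst : 0 < √t := Real.sqrt_pos.2 ht
  have hst2 : √t * √t = t := Real.mul_self_sqrt ht.le
  -- forms
  have bGx := hF.bG x hx t ht htρ
  have bGq := hF.bG q hq t ht htρ
  have bNx := hF.bN x hx t ht htρ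
  have nn : ∀ y ∈ ball o (R' * ρ), ∀ v, 0 ≤ Gm m p u t y v v := by
    intro y hy v
    by_cases hv : v = 0
    · have : Gm m p u t y v v = 0 := by
        rw [hv]
        have := (hF.bG y hy t ht htρ).smul 0 0 0
        simpa using this
      rw [this]
    · exact (hF.pos y hy t ht htρ v hv).le
  have pGx : PF (Gm m p u t x) := PF.of_symBil bGx (nn x hx)
  have pGq : PF (Gm m p u t q) := PF.of_symBil bGq (nn q hq)
  have N0 := hF.nonneg x hx t ht htρ
  have N0q := hF.nonneg q hq t ht htρ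
  have Nε : ∀ v, Nt m K p u Q A₀ ρ (1 / 4) t x v v ≤ Gm m p u t x v v := fun v =>
    (hF.f4a x hx t ht htρ v).trans (by nlinarith [nn x hx v])
  have Nεq : ∀ v, Nt m K p u Q A₀ ρ (1 / 4) t q v v ≤ Gm m p u t q v v := fun v =>
    (hF.f4a q hq t ht htρ v).trans (by nlinarith [nn q hq v])
  have hd' : dist x q / √t ≤ C₀ := by
    rw [div_le_iff₀ hst]; exact hd
  have hdq : dist q x ≤ C₀ * √t := by rw [dist_comm]; exact hd
  have cmp : ∀ v w, |Gm m p u t x v w - Gm m p u t q v w| ≤ k *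
      (√(Nt m K p u Q A₀ ρ (1 / 4) t x v v) * √(Nt m K p u Q A₀ ρ (1 / 4) t x w w)) := by
    intro v w
    refine (hF.f3 x hx q hq t ht htρ hd v w).trans ?_
    refine mul_le_mul_of_nonneg_right ?_ (by positivity)
    have : C₁ * (dist x q / √t) ≤ C₁ * C₀ := mul_le_mul_of_nonneg_left hd' hC₁
    linarith
  have cmpd : ∀ v, |Gm m p u t x v v - Gm m p u t q v v| ≤ C₁ * C₀ *
      Nt m K p u Q A₀ ρ (1 / 4) t x v v := by
    intro v
    have h1 := hF.f3 x hx q hq t ht htρ hd v v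
    rw [Real.mul_self_sqrt (N0 v)] at h1
    refine h1.trans (mul_le_mul_of_nonneg_right ?_ (N0 v))
    exact mul_le_mul_of_nonneg_left hd' hC₁
  have cmpd' : ∀ v, |Gm m p u t q v v - Gm m p u t x v v| ≤ C₁ * C₀ *
      Nt m K p u Q A₀ ρ (1 / 4) t q v v := by
    intro v
    have h1 := hF.f3 q hq x hx t ht htρ hdq v v
    rw [Real.mul_self_sqrt (N0q v)] at h1
    refine h1.trans (mul_le_mul_of_nonneg_right ?_ (N0q v))
    rw [dist_comm] at hd'
    exact mul_le_mul_of_nonneg_left hd' hC₁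
  have hCC : 0 ≤ C₁ * C₀ := mul_nonneg hC₁ hC₀
  have qy : ∀ v, Gm m p u t q v v ≤ k * Gm m p u t x v v := by
    intro v
    have h1 := (abs_le.1 (cmpd v)).1
    have h2 := mul_le_mul_of_nonneg_left (Nε v) hCC
    have h3 := mul_le_mul_of_nonneg_right hkC' (nn x hx v)
    nlinarith
  have yq : ∀ v, Gm m p u t x v v ≤ k * Gm m p u t q v v := by
    intro v
    have h1 := (abs_le.1 (cmpd' v)).1
    have h2 := mul_le_mul_of_nonneg_left (Nεq v) hCC
    have h3 := mul_le_mul_of_nonneg_right hkC' (nn q hq v)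
    nlinarith
  -- the normalised vector
  set c' : E n := (√t)⁻¹ • w with hc'
  have ew : w = √t • c' := by rw [hc', smul_smul, mul_inv_cancel₀ hst.ne', one_smul]
  have gc' : ∀ v, Gm m p u t x c' v = (√t)⁻¹ * ⟪v, uu x - uu q⟫_ℝ := by
    intro v
    rw [hc', bGx.smul, hw]
  have hnorm : Gm m p u t x c' c' ≤ L ^ 2 := by
    have h1 : Gm m p u t x c' c' ≤ L * √(Gm m p u t x c' c') := by
      rw [gc' c']
      have h2 := (le_abs_self _).trans (hP.lip c')
      calc (√t)⁻¹ * ⟪c', uu x - uu q⟫_ℝ ≤ (√t)⁻¹ * (L * √t * √(Gm m p u t x c' c')) :=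
            mul_le_mul_of_nonneg_left h2 (inv_nonneg.2 hst.le)
        _ = L * √(Gm m p u t x c' c') := by field_simp
        _ = L * √((√t)⁻¹ * ⟪c', uu x - uu q⟫_ℝ) := by rw [gc' c']
    have h3 : 0 ≤ Gm m p u t x c' c' := nn x hx c'
    have h4 := Real.sq_sqrt h3
    set s := √(Gm m p u t x c' c') with hs
    have hs0 : 0 ≤ s := Real.sqrt_nonneg _
    rw [← h4] at h1 ⊢
    by_cases hs1 : s = 0
    · rw [hs1]; nlinarith
    · have : 0 < s := lt_of_le_of_ne hs0 (Ne.symm hs1)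
      have h5 : s ≤ L := by
        have : s * s ≤ L * s := by nlinarith
        exact le_of_mul_le_mul_right this (by assumption)
      exact pow_le_pow_left₀ hs0 h5 2
  have eN : Nt m K p u Q A₀ ρ (1 / 4) t x w w = t * Nt m K p u Q A₀ ρ (1 / 4) t x c' c' := by
    rw [ew, bNx.smul, bNx.symm, bNx.smul, ← mul_assoc, hst2]
  set D := Dt m n K p Q A₀ ρ t x + Dt m n K p Q A₀ ρ t q with hD
  have hD0 : 0 ≤ D := add_nonneg hDx hDq
  have hk10 : 1 ≤ k ^ 10 := one_le_pow₀ (by linarith)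
  rw [eN]
  have goal' : Nt m K p u Q A₀ ρ (1 / 4) t x c' c' ≤ 640 * k ^ 10 * D := by
    by_cases hD1 : D ≤ 1
    swap
    · have h1 : Nt m K p u Q A₀ ρ (1 / 4) t x c' c' ≤ k :=
        ((Nε c').trans hnorm).trans hkL
      have h2 : k ≤ k ^ 10 := le_self_pow₀ (by linarith) (by norm_num)
      rw [not_le] at hD1
      nlinarith
    have hPH : PairHyp (Gm m p u t x) (Gm m p u t q) (fun a b => t * gm m K p u t x a b)
        (Nt m K p u Q A₀ ρ (1 / 4) t x)
        (fun a b => Nt m K p u Q A₀ ρ (3 / 8) t q a b + Dt m n K p Q A₀ ρ t q * Gm m p u t q a b)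
        A c c' k ε D :=
      { K1 := by linarith
        ε0 := hε
        D0 := hD0
        D1 := hD1
        Gy_pf := pGx
        Gq_pf := pGq
        Sy_pf :=
          { add := fun a b d => by
              show t * gm m K p u t x (a + b) d = t * gm m K p u t x a d + t * gm m K p u t x b d
              rw [bS.add]; ring
            smul := fun r a d => by
              show t * gm m K p u t x (r • a) d = r * (t * gm m K p u t x a d)
              rw [bS.smul]; ring
            symm := fun a b => by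
              show t * gm m K p u t x a b = t * gm m K p u t x b a
              rw [bS.symm]
            nonneg := fun a => mul_nonneg ht.le (S0 a) }
        Ny_nonneg := N0
        rel := by
          intro v
          have h1 := hP.rel v
          have e : Gm m p u t x c v - Gm m p u t x c' v - Gm m p u t x c' (A v)
              = Gm m p u t x c v - (√t)⁻¹ * (⟪v, uu x - uu q⟫_ℝ + ⟪A v, uu x - uu q⟫_ℝ) := by
            rw [gc' v, gc' (A v)]; ring
          rw [e]
          refine h1.trans ?_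
          exact mul_le_mul_of_nonneg_right (mul_le_mul_of_nonneg_right hkκ (Real.sqrt_nonneg _))
            (Real.sqrt_nonneg _)
        Sc := hP.r2.trans (mul_le_mul_of_nonneg_right hkκ hD0)
        Sε := hTT
        Nε := Nε
        E6 := by
          refine (hP.e6 c').trans ?_
          have h1 : 0 ≤ t * gm m K p u t x c' c' + Dt m n K p Q A₀ ρ t x * Gm m p u t x c' c' :=
            add_nonneg (mul_nonneg ht.le (S0 _)) (mul_nonneg hDx (nn x hx _))
          have h2 : Dt m n K p Q A₀ ρ t x * Gm m p u t x c' c' ≤ D * Gm m p u t x c' c' :=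
            mul_le_mul_of_nonneg_right (by linarith) (nn x hx _)
          calc κ * (t * gm m K p u t x c' c' + Dt m n K p Q A₀ ρ t x * Gm m p u t x c' c')
              ≤ k * (t * gm m K p u t x c' c' + Dt m n K p Q A₀ ρ t x * Gm m p u t x c' c') :=
                mul_le_mul_of_nonneg_right hkκ h1
            _ ≤ k * (t * gm m K p u t x c' c' + D * Gm m p u t x c' c') :=
                mul_le_mul_of_nonneg_left (by linarith) hk0.le
        norm := hnorm.trans hkL
        anti := by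
          intro v w
          refine (hP.anti v w).trans ?_
          have hsD : √(Dt m n K p Q A₀ ρ t q) ≤ √D := Real.sqrt_le_sqrt (by linarith)
          have h1 : κ * √(Dt m n K p Q A₀ ρ t q) ≤ k * √D :=
            mul_le_mul hkκ hsD (Real.sqrt_nonneg _) hk0.le
          have h2 : κ * √ε ≤ k * √ε := mul_le_mul_of_nonneg_right hkκ (Real.sqrt_nonneg _)
          exact add_le_add (mul_le_mul_of_nonneg_right h1 (by positivity))
            (mul_le_mul_of_nonneg_right h2 (by positivity))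
        Abd := fun v => (hP.abd v).trans (mul_le_mul_of_nonneg_right
          (mul_le_mul_of_nonneg_right hkκ (Real.sqrt_nonneg _)) (Real.sqrt_nonneg _))
        FG := by
          intro v
          have h1 := (hN v).trans (Nεq v)
          have h2 : Dt m n K p Q A₀ ρ t q ≤ 1 := by linarith
          have h3 := mul_le_mul_of_nonneg_right h2 (nn q hq v)
          have h4 := mul_le_mul_of_nonneg_right hk2 (nn q hq v)
          show Nt m K p u Q A₀ ρ (3 / 8) t q v v + Dt m n K p Q A₀ ρ t q * Gm m p u t q v v ≤ _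
          linarith
        FN := by
          intro v
          have h1 := (hN v).trans (hF.f4b x hx q hq t ht htρ hd v)
          have h2 := mul_le_mul_of_nonneg_right hkC (N0 v)
          have h3 : Dt m n K p Q A₀ ρ t q * Gm m p u t q v v ≤ D * (k * Gm m p u t x v v) :=
            mul_le_mul (by linarith) (qy v) (nn q hq v) hD0
          show Nt m K p u Q A₀ ρ (3 / 8) t q v v + Dt m n K p Q A₀ ρ t q * Gm m p u t q v v ≤ _
          nlinarith
        cmp := cmp
        qy := qy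
        yq := yq }
    exact hPH.bound hsm
  calc t * Nt m K p u Q A₀ ρ (1 / 4) t x c' c' ≤ t * (640 * k ^ 10 * D) :=
        mul_le_mul_of_nonneg_left goal' ht.le
    _ = 640 * k ^ 10 * t * D := by ring

end Vale.Agent.P242.H200
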