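import Vale.Agent.P242.H71.Voc
import Vale.Agent.P242.H542.Gam
import Vale.Agent.P242.H744.NuC
import Vale.Agent.P242.H924.Uc
import Vale.Agent.P233.Bd3.B10

/-! P242 (helper200): (h5) in the trivial range `t ∈ [ρ²/M², ρ²]`. -/

set_option linter.all false

open MeasureTheory Filter Topology Set Metric
open scoped ENNReal NNReal InnerProductSpace

universe u

namespace Vale.Agent.P242.H200

open Vale.Agent.P233 Vale.Agent.P233.RA Vale.Agent.P242.H990 Vale.Agent.P242.H71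

variable {M : Type u} [MetricSpace M] [CompleteSpace M] [SecondCountableTopology M]
  [MeasurableSpace M] [BorelSpace M] {m : Measure M} {n : ℕ} {K : ℝ} {o : M} {A : ℝ}
  {p : ℝ → M → M → ℝ}

theorem n_pos (h : Env m n K o A p) : (0 : ℝ) < n := by
  have := h.hyp.two_le
  exact_mod_cast (by omega : 0 < n)

theorem env_be_neg (h : Env m n K o A p) : (sob m).BE (-|K|) n :=
  (H924.facts h.hyp).gam.BE_mono (neg_abs_le K) (n_pos h) (H924.facts h.hyp).be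

theorem env_bei_neg (h : Env m n K o A p) : (sob m).BEi (-|K|) :=
  (H924.facts h.hyp).gam.bei (n_pos h) (env_be_neg h)

variable {R Q η ρ : ℝ} {u : Fin n → M →ₘ[m] ℝ} {uu : M → E n}

/-- Harnack in time at one centre, for the kernel class -/
theorem ph_le (h : Env m n K o A p) {Γ s s' : ℝ} {x : M} (hs : 0 < s) (h1 : 4 * A ^ 2 * s ≤ s')
    (h2 : s' ≤ Γ * s) (h3 : s' ≤ 1 / 2) :
    ph m p s x ≤ (cG n A Γ 0 * Real.exp (2 * A * dist x o)) • ph m p s' x := by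
  have hA := h.kb.one_le
  have hs' : 0 < s' := lt_of_lt_of_le (by have := h.kb.pos; positivity) h1
  rw [le_iff_ae]
  filter_upwards [ph_ae h.ker hs x, ph_ae h.ker hs' x,
    smul_ae (ph m p s' x) (cG n A Γ 0 * Real.exp (2 * A * dist x o))] with z a1 a2 a3
  rw [a1, a3, a2]
  exact h.kb.p_le hs h1 h2 h3 (by simp)

theorem gm_nonneg (h : Env m n K o A p) (hu : Cfg m n K o p R Q η ρ u uu) {s : ℝ} (hs : 0 < s)
    (x : M) (c : E n) : 0 ≤ gm m K p u s x c c := by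
  have hC := (H924.facts h.hyp).gam
  exact hC.NN_nonneg (env_bei_neg h) (H924.uc_testI h hu c).1 (ph_A hC h.ker h.kb hs x)
    (ph_nonneg h.ker hs x)

theorem gm_harn (h : Env m n K o A p) (hu : Cfg m n K o p R Q η ρ u uu) {Γ s s' : ℝ} {x : M}
    (hs : 0 < s) (h1 : 4 * A ^ 2 * s ≤ s') (h2 : s' ≤ Γ * s) (h3 : s' ≤ 1 / 2) (c : E n) :
    gm m K p u s x c c ≤ cG n A Γ 0 * Real.exp (2 * A * dist x o) * gm m K p u s' x c c := by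
  have hC := (H924.facts h.hyp).gam
  have hs' : 0 < s' := lt_of_lt_of_le (by have := h.kb.pos; positivity) h1
  exact hC.NN_harn (env_bei_neg h) (H924.uc_testI h hu c).1 (ph_A hC h.ker h.kb hs x)
    (ph_A hC h.ker h.kb hs' x) (ph_le h hs h1 h2 h3)

/-- Harnack for `P_s |F|`, `F` bounded -/
theorem PP_abs_harn (h : Env m n K o A p) {Γ s s' : ℝ} {x : M}
    (hs : 0 < s) (h1 : 4 * A ^ 2 * s ≤ s') (h2 : s' ≤ Γ * s) (h3 : s' ≤ 1 / 2) {F : M →ₘ[m] ℝ}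
    (hF : MemLp F ∞ m) :
    PP m p s x |F| ≤ cG n A Γ 0 * Real.exp (2 * A * dist x o) * PP m p s' x |F| := by
  have hs' : 0 < s' := lt_of_lt_of_le (by have := h.kb.pos; positivity) h1
  have hFa : MemLp (|F| : M →ₘ[m] ℝ) ∞ m :=
    mem_of_le hF (by filter_upwards [abs_ae' F] with z hz; rw [hz, abs_abs])
  have i1 : MemLp (ph m p s x * |F| : M →ₘ[m] ℝ) 1 m := mem_top_mul (ph_mem1 h.ker hs x) hFa
  have i2 : MemLp (ph m p s' x * |F| : M →ₘ[m] ℝ) 1 m := mem_top_mul (ph_mem1 h.ker hs' x) hFa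
  unfold PP
  rw [← I_smul]
  refine I_mono i1 (mem_smul _ i2) (le_iff_ae.2 ?_)
  filter_upwards [mul_ae (ph m p s x) |F|, mul_ae (ph m p s' x) |F|, abs_ae' F,
    smul_ae (ph m p s' x * |F|) (cG n A Γ 0 * Real.exp (2 * A * dist x o)),
    le_iff_ae.1 (ph_le h hs h1 h2 h3),
    smul_ae (ph m p s' x) (cG n A Γ 0 * Real.exp (2 * A * dist x o))] with z a1 a2 a3 a4 a5 a6
  rw [a6] at a5
  rw [a1, a4, a2, a3]
  calc ph m p s x z * |F z| ≤ (cG n A Γ 0 * Real.exp (2 * A * dist x o) * ph m p s' x z) * |F z| :=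
        mul_le_mul_of_nonneg_right a5 (abs_nonneg _)
    _ = _ := by ring

/-- `Dt ≥ A₀ (t/ρ²)^{1/8}` -/
theorem Dt_ge (h : Env m n K o A p) {A₀ t : ℝ} (ht : 0 < t) (htQ : t ≤ Q * ρ ^ 2) (y : M) :
    A₀ * (t / ρ ^ 2) ^ (1 / 8 : ℝ) ≤ Dt m n K p Q A₀ ρ t y := by
  unfold Dt
  have : 0 ≤ ∫ s in t..Q * ρ ^ 2, (t / s) ^ (1 / 8 : ℝ) * (nu m n K p y s y / s) := by
    refine intervalIntegral.integral_nonneg htQ fun s hs => ?_
    have hs0 : 0 < s := ht.trans_le hs.1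
    have := H924.nu_nonneg h y y hs0
    positivity
  linarith

/-- `|⟨∇u_c,∇u_c⟩ - |c|²|` is bounded -/
theorem gram_top (h : Env m n K o A p) (hu : Cfg m n K o p R Q η ρ u uu) (c c' : E n) :
    MemLp ((sob m).Γ (uc u c) (uc u c') - ⟪c, c'⟫_ℝ • (1 : M →ₘ[m] ℝ) : M →ₘ[m] ℝ) ∞ m := by
  have hC := (H924.facts h.hyp).gam
  have t1 := (H924.uc_testI h hu c).1
  have t2 := (H924.uc_testI h hu c').1
  exact mem_sub (hC.toIsDir.Γ_memTop (hC.test_A t1).1 (hC.test_Γ_top t1) (hC.test_A t2).1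
    (hC.test_Γ_top t2)) (mem_smul _ mem_top_one)

/-- `|G_t(c,c) - |c|²| ≤ P_t |Γ(u_c,u_c) - |c|²|` -/
theorem Gm_sub_le (h : Env m n K o A p) (hu : Cfg m n K o p R Q η ρ u uu) {s : ℝ} (hs : 0 < s)
    (x : M) (c c' : E n) :
    |Gm m p u s x c c' - ⟪c, c'⟫_ℝ| ≤
      PP m p s x |(sob m).Γ (uc u c) (uc u c') - ⟪c, c'⟫_ℝ • (1 : M →ₘ[m] ℝ)| := by
  have hC := (H924.facts h.hyp).gam
  set G := (sob m).Γ (uc u c) (uc u c') with hG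
  have t1 := (H924.uc_testI h hu c).1
  have t2 := (H924.uc_testI h hu c').1
  have hGt : MemLp G ∞ m := hC.toIsDir.Γ_memTop (hC.test_A t1).1 (hC.test_Γ_top t1)
    (hC.test_A t2).1 (hC.test_Γ_top t2)
  have p1 := ph_mem1 h.ker hs x
  have e : Gm m p u s x c c' - ⟪c, c'⟫_ℝ = I (ph m p s x * (G - ⟪c, c'⟫_ℝ • (1 : M →ₘ[m] ℝ))) := by
    have e1 : ph m p s x * (G - ⟪c, c'⟫_ℝ • (1 : M →ₘ[m] ℝ))
        = ph m p s x * G - ⟪c, c'⟫_ℝ • ph m p s x := by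
      rw [mul_sub, mul_smul_comm, mul_one]
    rw [e1, I_sub (mem_top_mul p1 hGt) (mem_smul _ p1), I_smul, I_ph h.ker hs x, mul_one]
    rfl
  rw [e]
  unfold PP
  set F := G - ⟪c, c'⟫_ℝ • (1 : M →ₘ[m] ℝ) with hF
  unfold I
  refine (abs_integral_le_integral_abs).trans (le_of_eq (integral_congr_ae ?_))
  filter_upwards [mul_ae (ph m p s x) F, mul_ae (ph m p s x) |F|, abs_ae' F,
    nonneg_iff_ae.1 (ph_nonneg h.ker hs x)] with z a1 a2 a3 a4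
  rw [a1, a2, a3, abs_mul, abs_of_nonneg a4]

/-- the constant of the trivial range -/
noncomputable def cH (n : ℕ) (A Q M₁ : ℝ) : ℝ := cG n A (Q * M₁ ^ 2) 0 * Real.exp (2 * A)

theorem cH_pos (h : Env m n K o A p) {M₁ : ℝ} (hQ : 4 * A ^ 2 ≤ Q) (hM₁ : 1 ≤ M₁) :
    0 < cH n A Q M₁ := by
  have hA := h.kb.one_le
  have hA2 : 1 ≤ A ^ 2 := one_le_pow₀ hA
  have hQ0 : 0 < Q := by linarith
  have hcG : 0 < cG n A (Q * M₁ ^ 2) 0 := cG_pos hA (by positivity)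
  unfold cH
  positivity

theorem cG_le_cH (h : Env m n K o A p) (hu : Cfg m n K o p R Q η ρ u uu) {M₁ : ℝ}
    (hQ : 4 * A ^ 2 ≤ Q) (hM₁ : 1 ≤ M₁) {x : M} (hx : x ∈ ball o (R * ρ)) :
    cG n A (Q * M₁ ^ 2) 0 * Real.exp (2 * A * dist x o) ≤ cH n A Q M₁ := by
  have hA := h.kb.one_le
  have hA2 : 1 ≤ A ^ 2 := one_le_pow₀ hA
  have hQ0 : 0 < Q := by linarith
  have hcG : 0 < cG n A (Q * M₁ ^ 2) 0 := cG_pos hA (by positivity)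
  have hxo : dist x o ≤ 1 := by
    have := mem_ball.1 hx
    linarith [hu.Rρ]
  have hexp : Real.exp (2 * A * dist x o) ≤ Real.exp (2 * A) := by
    apply Real.exp_le_exp.2
    nlinarith
  exact mul_le_mul_of_nonneg_left hexp hcG.le

theorem PP_abs_nonneg (h : Env m n K o A p) {s : ℝ} (hs : 0 < s) (x : M) (F : M →ₘ[m] ℝ) :
    0 ≤ PP m p s x |F| := by
  refine I_nonneg (nonneg_iff_ae.2 ?_)
  filter_upwards [mul_ae (ph m p s x) |F|, abs_ae' F,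
    nonneg_iff_ae.1 (ph_nonneg h.ker hs x)] with z a1 a2 a3
  rw [a1, a2]
  exact mul_nonneg a3 (abs_nonneg _)

/-- elementary facts on the times of the trivial range -/
theorem times (h : Env m n K o A p) (hu : Cfg m n K o p R Q η ρ u uu) {M₁ : ℝ}
    (hQ : 4 * A ^ 2 ≤ Q) (hM₁ : 1 ≤ M₁) {s : ℝ} (hs : ρ ^ 2 / M₁ ^ 2 ≤ s) (hsρ : s ≤ ρ ^ 2) :
    0 < s ∧ 4 * A ^ 2 * s ≤ Q * ρ ^ 2 ∧ Q * ρ ^ 2 ≤ Q * M₁ ^ 2 * s ∧ ρ ^ 2 ≤ M₁ ^ 2 * s ∧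
      ρ ^ 2 / Q ≤ Q * ρ ^ 2 := by
  have hA := h.kb.one_le
  have hA2 : 1 ≤ A ^ 2 := one_le_pow₀ hA
  have hρ := hu.ρ_pos
  have hρ2 : 0 < ρ ^ 2 := by positivity
  have hQ0 : 0 < Q := by linarith
  have hs0 : 0 < s := lt_of_lt_of_le (by positivity) hs
  have h1 : ρ ^ 2 ≤ M₁ ^ 2 * s := by
    rw [div_le_iff₀ (by positivity)] at hs
    linarith
  refine ⟨hs0, ?_, ?_, h1, ?_⟩
  · exact mul_le_mul hQ hsρ hs0.le hQ0.le
  · calc Q * ρ ^ 2 ≤ Q * (M₁ ^ 2 * s) := mul_le_mul_of_nonneg_left h1 hQ0.le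
      _ = Q * M₁ ^ 2 * s := by ring
  · rw [div_le_iff₀ hQ0]
    have : 1 ≤ Q * Q := by nlinarith
    calc ρ ^ 2 = ρ ^ 2 * 1 := by ring
      _ ≤ ρ ^ 2 * (Q * Q) := mul_le_mul_of_nonneg_left this hρ2.le
      _ = Q * ρ ^ 2 * Q := by ring

/-- the Gram matrix is close to the identity in the trivial range -/
theorem gram_half (h : Env m n K o A p) (hu : Cfg m n K o p R Q η ρ u uu) {M₁ : ℝ}
    (hη : 0 ≤ η) (hQ : 4 * A ^ 2 ≤ Q) (hM₁ : 1 ≤ M₁) (hη1 : cH n A Q M₁ * η ≤ 1 / 2) {x : M}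
    (hx : x ∈ ball o (R * ρ)) {t : ℝ} (htM : ρ ^ 2 / M₁ ^ 2 ≤ t) (htρ : t ≤ ρ ^ 2) (c : E n) :
    1 / 2 * ‖c‖ ^ 2 ≤ Gm m p u t x c c := by
  obtain ⟨ht, t1, t2, t3, t4⟩ := times h hu hQ hM₁ htM htρ
  have hQρ : 0 < Q * ρ ^ 2 := lt_of_lt_of_le (by have := h.kb.pos; positivity) t1
  have g1 := Gm_sub_le h hu ht x c c
  have g2 := PP_abs_harn h (x := x) ht t1 t2 hu.Qρ (gram_top h hu c c)
  have g3 := hu.gram1 x hx (Q * ρ ^ 2) t4 le_rfl c c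
  have g4 := PP_abs_nonneg h hQρ x ((sob m).Γ (uc u c) (uc u c) - ⟪c, c⟫_ℝ • (1 : M →ₘ[m] ℝ))
  have g5 := cG_le_cH h hu hQ hM₁ hx
  have g6 : |Gm m p u t x c c - ⟪c, c⟫_ℝ| ≤ cH n A Q M₁ * (η * ‖c‖ * ‖c‖) :=
    (g1.trans g2).trans ((mul_le_mul_of_nonneg_right g5 g4).trans
      (mul_le_mul_of_nonneg_left g3 (cH_pos h hQ hM₁).le))
  have g7 := (abs_le.1 g6).1
  rw [real_inner_self_eq_norm_sq] at g7
  have g8 : cH n A Q M₁ * (η * ‖c‖ * ‖c‖) = cH n A Q M₁ * η * ‖c‖ ^ 2 := by ring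
  have g9 := mul_le_mul_of_nonneg_right hη1 (sq_nonneg ‖c‖)
  rw [g8] at g7
  linarith

/-- `gm` is tiny at the top scales -/
theorem gm_tiny (h : Env m n K o A p) (hu : Cfg m n K o p R Q η ρ u uu) {M₁ : ℝ}
    (hη : 0 ≤ η) (hQ : 4 * A ^ 2 ≤ Q) (hM₁ : 1 ≤ M₁) {x : M}
    (hx : x ∈ ball o (R * ρ)) {s : ℝ} (hsM : ρ ^ 2 / M₁ ^ 2 ≤ s) (hsQ : s ≤ Q * ρ ^ 2) (c : E n) :
    gm m K p u s x c c ≤ (cH n A Q M₁ + 1) * η * ‖c‖ ^ 2 / ρ ^ 2 := by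
  have hρ := hu.ρ_pos
  have hρ2 : 0 < ρ ^ 2 := by positivity
  have hA := h.kb.one_le
  have hA2 : 1 ≤ A ^ 2 := one_le_pow₀ hA
  have hQ1 : 1 ≤ Q := by linarith
  have hC := cH_pos h hQ hM₁
  have hs0 : 0 < s := lt_of_lt_of_le (by positivity) hsM
  have hc0 : 0 ≤ ‖c‖ ^ 2 := sq_nonneg _
  rw [le_div_iff₀ hρ2]
  rcases le_total s (ρ ^ 2) with h1 | h1
  · obtain ⟨_, t1, t2, t3, t4⟩ := times h hu hQ hM₁ hsM h1
    have hQρ : 0 < Q * ρ ^ 2 := by positivity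
    have g1 := gm_harn h hu (x := x) hs0 t1 t2 hu.Qρ c
    have g2 := hu.gam x hx (Q * ρ ^ 2) t4 le_rfl c
    have g0 := gm_nonneg h hu hQρ x c
    have g3 : gm m K p u (Q * ρ ^ 2) x c c * ρ ^ 2 ≤ η * ‖c‖ ^ 2 := by
      refine le_trans ?_ g2
      have : gm m K p u (Q * ρ ^ 2) x c c * ρ ^ 2 ≤ gm m K p u (Q * ρ ^ 2) x c c * (Q * ρ ^ 2) := by
        refine mul_le_mul_of_nonneg_left ?_ g0
        nlinarith
      linarith
    calc gm m K p u s x c c * ρ ^ 2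
        ≤ (cH n A Q M₁ * gm m K p u (Q * ρ ^ 2) x c c) * ρ ^ 2 :=
          mul_le_mul_of_nonneg_right (g1.trans (mul_le_mul_of_nonneg_right
            (cG_le_cH h hu hQ hM₁ hx) g0)) hρ2.le
      _ = cH n A Q M₁ * (gm m K p u (Q * ρ ^ 2) x c c * ρ ^ 2) := by ring
      _ ≤ cH n A Q M₁ * (η * ‖c‖ ^ 2) := mul_le_mul_of_nonneg_left g3 hC.le
      _ ≤ (cH n A Q M₁ + 1) * η * ‖c‖ ^ 2 := by
        have : 0 ≤ η * ‖c‖ ^ 2 := by positivity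
        linarith
  · have g2 := hu.gam x hx s ((div_le_self hρ2.le hQ1).trans h1) hsQ c
    have g0 := gm_nonneg h hu hs0 x c
    have g3 : gm m K p u s x c c * ρ ^ 2 ≤ s * gm m K p u s x c c := by
      have := mul_le_mul_of_nonneg_right h1 g0
      linarith
    have g5 : 0 ≤ cH n A Q M₁ * η * ‖c‖ ^ 2 := by positivity
    linarith

/-- the integral part of `Nt` at the top scales -/
theorem int_tiny (h : Env m n K o A p) (hu : Cfg m n K o p R Q η ρ u uu) {M₁ : ℝ}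
    (hη : 0 ≤ η) (hQ : 4 * A ^ 2 ≤ Q) (hM₁ : 1 ≤ M₁) {x : M}
    (hx : x ∈ ball o (R * ρ)) {t e : ℝ} (he : 0 ≤ e) (htM : ρ ^ 2 / M₁ ^ 2 ≤ t)
    (htQ : t ≤ Q * ρ ^ 2) (c : E n) :
    ∫ s in t..Q * ρ ^ 2, (t / s) ^ e * gm m K p u s x c c ≤
      Q * (cH n A Q M₁ + 1) * η * ‖c‖ ^ 2 := by
  have hρ := hu.ρ_pos
  have hρ2 : 0 < ρ ^ 2 := by positivity
  have hC := cH_pos h hQ hM₁
  have ht : 0 < t := lt_of_lt_of_le (by positivity) htM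
  have g1 : ‖∫ s in t..Q * ρ ^ 2, (t / s) ^ e * gm m K p u s x c c‖ ≤
      (cH n A Q M₁ + 1) * η * ‖c‖ ^ 2 / ρ ^ 2 * |Q * ρ ^ 2 - t| := by
    refine intervalIntegral.norm_integral_le_of_norm_le_const fun s hs => ?_
    rw [uIoc_of_le htQ] at hs
    have hs0 : 0 < s := ht.trans hs.1
    have a1 : 0 ≤ (t / s) ^ e := Real.rpow_nonneg (by positivity) _
    have a2 : (t / s) ^ e ≤ 1 :=
      Real.rpow_le_one (by positivity) ((div_le_one hs0).2 hs.1.le) he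
    have a3 := gm_nonneg h hu hs0 x c
    rw [Real.norm_of_nonneg (mul_nonneg a1 a3)]
    refine le_trans ?_ (gm_tiny h hu hη hQ hM₁ hx (htM.trans hs.1.le) hs.2 c)
    calc (t / s) ^ e * gm m K p u s x c c ≤ 1 * gm m K p u s x c c :=
          mul_le_mul_of_nonneg_right a2 a3
      _ = _ := one_mul _
  have g2 : |Q * ρ ^ 2 - t| ≤ Q * ρ ^ 2 := by
    rw [abs_of_nonneg (by linarith)]; linarith
  have g3 : 0 ≤ (cH n A Q M₁ + 1) * η * ‖c‖ ^ 2 / ρ ^ 2 := by positivity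
  calc _ ≤ _ := Real.le_norm_self _
    _ ≤ _ := g1
    _ ≤ (cH n A Q M₁ + 1) * η * ‖c‖ ^ 2 / ρ ^ 2 * (Q * ρ ^ 2) := mul_le_mul_of_nonneg_left g2 g3
    _ = Q * (cH n A Q M₁ + 1) * η * ‖c‖ ^ 2 := by field_simp

/-- size of the dual vector in the trivial range -/
theorem dual_size (h : Env m n K o A p) (hu : Cfg m n K o p R Q η ρ u uu) {M₁ C₀ : ℝ}
    (hη : 0 ≤ η) (hQ : 4 * A ^ 2 ≤ Q) (hM₁ : 1 ≤ M₁) (hη1 : cH n A Q M₁ * η ≤ 1 / 2)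
    (hη2 : η * M₁ ≤ 1) (hC₀ : 0 ≤ C₀) {x y : M}
    (hx : x ∈ ball o (R * ρ)) (hy : y ∈ ball o (R * ρ)) {t : ℝ} (htM : ρ ^ 2 / M₁ ^ 2 ≤ t)
    (htρ : t ≤ ρ ^ 2) (hd : dist x y ≤ C₀ * √t) {c : E n}
    (hc : ∀ c' : E n, Gm m p u t x c c' = ⟪c', uu x - uu y⟫_ℝ) :
    ‖c‖ ^ 2 ≤ 4 * (C₀ + 1) ^ 2 * t := by
  obtain ⟨ht, t1, t2, t3, t4⟩ := times h hu hQ hM₁ htM htρ
  have hρ := hu.ρ_pos
  have hst : 0 < √t := Real.sqrt_pos.2 ht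
  have hst2 : √t * √t = t := Real.mul_self_sqrt ht.le
  have hG2 := gram_half h hu hη hQ hM₁ hη1 hx htM htρ c
  have hw : ‖uu x - uu y‖ ≤ (C₀ + 1) * √t := by
    have h2 := (abs_le.1 (hu.iso x hx y hy)).2
    rw [dist_eq_norm] at h2
    have h3 : η * ρ ≤ √t := by
      have h4 : ρ ≤ M₁ * √t := by
        have h5 : ρ ^ 2 ≤ (M₁ * √t) ^ 2 := by
          rw [mul_pow, sq (√t), hst2]; exact t3
        exact (le_abs_self _).trans (abs_le_of_sq_le_sq h5 (by positivity))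
      calc η * ρ ≤ η * (M₁ * √t) := mul_le_mul_of_nonneg_left h4 hη
        _ = η * M₁ * √t := by ring
        _ ≤ 1 * √t := mul_le_mul_of_nonneg_right hη2 hst.le
        _ = √t := one_mul _
    linarith
  have hcn : ‖c‖ ≤ 2 * ((C₀ + 1) * √t) := by
    have h1 := hc c
    have h2 : ⟪c, uu x - uu y⟫_ℝ ≤ ‖c‖ * ‖uu x - uu y‖ := real_inner_le_norm _ _
    rw [← h1] at h2
    have h3 : 1 / 2 * ‖c‖ ^ 2 ≤ ‖c‖ * ((C₀ + 1) * √t) :=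
      hG2.trans (h2.trans (mul_le_mul_of_nonneg_left hw (norm_nonneg _)))
    by_cases h0 : ‖c‖ = 0
    · rw [h0]; positivity
    · have hp : 0 < ‖c‖ := lt_of_le_of_ne (norm_nonneg _) (Ne.symm h0)
      have : ‖c‖ * ‖c‖ ≤ 2 * ((C₀ + 1) * √t) * ‖c‖ := by linarith
      exact le_of_mul_le_mul_right this hp
  calc ‖c‖ ^ 2 ≤ (2 * ((C₀ + 1) * √t)) ^ 2 := pow_le_pow_left₀ (norm_nonneg _) hcn 2
    _ = 4 * (C₀ + 1) ^ 2 * (√t * √t) := by ring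
    _ = _ := by rw [hst2]

/-- **the trivial range of (h5)** -/
theorem h5_trivial (h : Env m n K o A p) (C₀ : ℝ) (hC₀ : 0 ≤ C₀) {Q : ℝ} (hQ : 4 * A ^ 2 ≤ Q)
    {A₀ M₁ : ℝ} (hA₀ : 0 < A₀) (hM₁ : 1 ≤ M₁) :
    ∃ η₁ : ℝ, 0 < η₁ ∧ ∀ R η ρ : ℝ, 0 < η → η ≤ η₁ →
      ∀ (u : Fin n → M →ₘ[m] ℝ) (uu : M → E n), Cfg m n K o p R Q η ρ u uu →
      ∀ x ∈ ball o (R * ρ), ∀ y ∈ ball o (R * ρ), ∀ t, ρ ^ 2 / M₁ ^ 2 ≤ t → t ≤ ρ ^ 2 →
        dist x y ≤ C₀ * √t → ∀ c : E n, (∀ c' : E n, Gm m p u t x c c' = ⟪c', uu x - uu y⟫_ℝ) →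
        Nt m K p u Q A₀ ρ (1 / 4) t x c c ≤
          8 * (C₀ + 1) ^ 2 * t * (Dt m n K p Q A₀ ρ t x + Dt m n K p Q A₀ ρ t y) := by
  have hA := h.kb.one_le
  have hA2 : 1 ≤ A ^ 2 := one_le_pow₀ hA
  have hQ1 : 1 ≤ Q := by linarith
  have hQ0 : 0 < Q := by linarith
  have hM0 : 0 < M₁ := by linarith
  set CH : ℝ := cH n A Q M₁ with hCH
  have hCH0 : 0 < CH := cH_pos h hQ hM₁
  set a8 : ℝ := ((M₁ ^ 2)⁻¹) ^ (1 / 8 : ℝ) with ha8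
  have ha80 : 0 < a8 := Real.rpow_pos_of_pos (by positivity) _
  refine ⟨min (min (1 / (2 * (CH + 1))) (1 / M₁)) (A₀ * a8 / (Q * (CH + 1))), by positivity, ?_⟩
  intro R η ρ hη hη1 u uu hu x hx y hy t htM htρ hd c hc
  have e1 : η ≤ 1 / (2 * (CH + 1)) := (hη1.trans (min_le_left _ _)).trans (min_le_left _ _)
  have e2 : η ≤ 1 / M₁ := (hη1.trans (min_le_left _ _)).trans (min_le_right _ _)
  have e3 : η ≤ A₀ * a8 / (Q * (CH + 1)) := hη1.trans (min_le_right _ _)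
  have e1' : CH * η ≤ 1 / 2 := by
    calc CH * η ≤ (CH + 1) * (1 / (2 * (CH + 1))) :=
          mul_le_mul (by linarith) e1 hη.le (by positivity)
      _ = 1 / 2 := by field_simp
  have e2' : η * M₁ ≤ 1 := by
    rw [le_div_iff₀ hM0] at e2; exact e2
  have e3' : Q * (CH + 1) * η ≤ A₀ * a8 := by
    rw [le_div_iff₀ (by positivity)] at e3
    linarith
  clear e1 e2 e3 hη1
  obtain ⟨ht, t1, t2, t3, t4⟩ := times h hu hQ hM₁ htM htρ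
  have hρ := hu.ρ_pos
  have hρ2 : 0 < ρ ^ 2 := by positivity
  have htQ : t ≤ Q * ρ ^ 2 := htρ.trans (le_mul_of_one_le_left hρ2.le hQ1)
  have hc2 := dual_size h hu hη.le hQ hM₁ e1' e2' hC₀ hx hy htM htρ hd hc
  have hint := int_tiny h hu hη.le hQ hM₁ hx (e := 1 / 4) (by norm_num) htM htQ c
  have hDx := Dt_ge (A₀ := A₀) h ht htQ x
  have hDy := Dt_ge (A₀ := A₀) h ht htQ y
  have htρ' : t / ρ ^ 2 ≤ 1 := (div_le_one hρ2).2 htρ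
  have htρ0 : 0 < t / ρ ^ 2 := by positivity
  have r8 : a8 ≤ (t / ρ ^ 2) ^ (1 / 8 : ℝ) := by
    refine Real.rpow_le_rpow (by positivity) ?_ (by norm_num)
    rw [le_div_iff₀ hρ2, inv_mul_le_iff₀ (by positivity)]
    exact t3
  have r4 : (t / ρ ^ 2) ^ (1 / 4 : ℝ) ≤ (t / ρ ^ 2) ^ (1 / 8 : ℝ) :=
    Real.rpow_le_rpow_of_exponent_ge htρ0 htρ' (by norm_num)
  have r80 : 0 < (t / ρ ^ 2) ^ (1 / 8 : ℝ) := Real.rpow_pos_of_pos htρ0 _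
  set X := (t / ρ ^ 2) ^ (1 / 8 : ℝ) with hX
  have hDy0 : 0 ≤ Dt m n K p Q A₀ ρ t y := le_trans (mul_pos hA₀ r80).le hDy
  have hη3 : Q * (CH + 1) * η ≤ A₀ * X := e3'.trans (mul_le_mul_of_nonneg_left r8 hA₀.le)
  have hA4 : A₀ * (t / ρ ^ 2) ^ (1 / 4 : ℝ) ≤ A₀ * X := mul_le_mul_of_nonneg_left r4 hA₀.le
  have fin : Nt m K p u Q A₀ ρ (1 / 4) t x c c ≤ 2 * (A₀ * X) * ‖c‖ ^ 2 := by
    unfold Nt
    rw [real_inner_self_eq_norm_sq]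
    have k1 := mul_le_mul_of_nonneg_right hη3 (sq_nonneg ‖c‖)
    have k2 := mul_le_mul_of_nonneg_right hA4 (sq_nonneg ‖c‖)
    linarith
  have hAX : 0 ≤ 2 * (A₀ * X) := by positivity
  have hCt : 0 ≤ 8 * (C₀ + 1) ^ 2 * t := by positivity
  calc Nt m K p u Q A₀ ρ (1 / 4) t x c c ≤ 2 * (A₀ * X) * ‖c‖ ^ 2 := fin
    _ ≤ 2 * (A₀ * X) * (4 * (C₀ + 1) ^ 2 * t) := mul_le_mul_of_nonneg_left hc2 hAX
    _ = 8 * (C₀ + 1) ^ 2 * t * (A₀ * X) := by ring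
    _ ≤ _ := mul_le_mul_of_nonneg_left (by linarith) hCt

end Vale.Agent.P242.H200
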