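import Vale.Agent.P242.H771.Sub
import Vale.Agent.P242.H200.H5Triv

/-! P242, package A-H5 (helper200): `SB_H5` (the estimate (h5) at all levels) implies `Blk_H5`. -/

set_option linter.all false

open MeasureTheory Filter Topology Set Metric
open scoped ENNReal NNReal InnerProductSpace

universe u

namespace Vale.Agent.P242.H200

open Vale.Agent.P233 Vale.Agent.P233.RA Vale.Agent.P242.H990 Vale.Agent.P242.H71
open Vale.Agent.P242.H655 Vale.Agent.P242.H771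
open Vale.Agent.P242.H852 (tl ws)

/-- every small scale is a level of an admissible grid -/
theorem exists_level {Λ M' ρ s : ℝ} (hΛ : 16 ≤ Λ) (hM : Λ ^ 2 ≤ M') (hρ : 0 < ρ) (hs : 0 < s)
    (hsM : s < ρ / M') :
    ∃ (r₀ : ℝ) (k : ℕ), ρ / M' ≤ r₀ ∧ r₀ ≤ ρ / √M' ∧ 1 ≤ k ∧ rr r₀ Λ k = s := by
  have hM0 : 0 < M' := lt_of_lt_of_le (by positivity) hM
  have hΛ0 : 0 < Λ := by linarith
  have hx : 1 ≤ (ρ / M') / s := (one_le_div hs).2 hsM.le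
  obtain ⟨k, hk1, hk2⟩ := exists_nat_pow_near hx (by linarith : 1 < Λ)
  have h1 : s * Λ ^ k ≤ ρ / M' := by
    have := (le_div_iff₀ hs).1 hk1
    linarith
  have h2 : ρ / M' < s * Λ ^ (k + 1) := by
    have := (div_lt_iff₀ hs).1 hk2
    linarith
  have hsq : 0 < √M' := Real.sqrt_pos.2 hM0
  have hΛs : Λ ≤ √M' := Real.le_sqrt_of_sq_le hM
  refine ⟨s * Λ ^ (k + 1), k + 1, h2.le, ?_, by omega, ?_⟩
  · have h3 : s * Λ ^ (k + 1) = (s * Λ ^ k) * Λ := by rw [pow_succ]; ring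
    rw [h3]
    have h4 : ρ / M' * Λ ≤ ρ / √M' := by
      have h5 : M' = √M' * √M' := (Real.mul_self_sqrt hM0.le).symm
      rw [div_mul_eq_mul_div, div_le_div_iff₀ hM0 hsq]
      calc ρ * Λ * √M' ≤ ρ * √M' * √M' := by gcongr
        _ = ρ * M' := by rw [mul_assoc, ← h5]
    exact (mul_le_mul_of_nonneg_right h1 hΛ0.le).trans h4
  · unfold rr
    exact mul_div_cancel_right₀ _ (pow_ne_zero _ hΛ0.ne')

/-- `SB_H5` implies `Blk_H5`. -/
theorem blk_H5_of (hs : ∀ (M : Type u) [MetricSpace M] [CompleteSpace M]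
    [SecondCountableTopology M] [MeasurableSpace M] [BorelSpace M] (m : Measure M) (n : ℕ) (K : ℝ)
    (o : M) (A : ℝ) (p : ℝ → M → M → ℝ), Env m n K o A p → SB_H5 m n K o p) : H71.Blk_H5.{u} := by
  intro M _ _ _ _ _ m n K o A p h C₀ hC₀
  obtain ⟨Q₀, hQ₀, H1⟩ := hs M m n K o A p h C₀ hC₀
  refine ⟨max Q₀ (4 * A ^ 2), le_max_of_le_left hQ₀, fun Q hQ => ?_⟩
  have hAQ : 4 * A ^ 2 ≤ Q := (le_max_right _ _).trans hQ
  obtain ⟨R₀, hR₀, H2⟩ := H1 Q ((le_max_left _ _).trans hQ)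
  refine ⟨R₀, hR₀, fun R hR => ?_⟩
  have hR0 : 0 ≤ R := by linarith
  obtain ⟨Λ, hΛ, H3⟩ := H2 R hR
  obtain ⟨B, hB, ε₁, hε₁, H4⟩ := H3 Λ le_rfl
  refine ⟨max B (8 * (C₀ + 1) ^ 2), le_max_of_le_left hB, ε₁, hε₁, fun A₀ hA hA' => ?_⟩
  obtain ⟨M₀, hM₀, H5⟩ := H4 A₀ hA hA'
  obtain ⟨M', hM'0, hM'Λ⟩ : ∃ M', M₀ ≤ M' ∧ Λ ^ 2 ≤ M' := ⟨max M₀ (Λ ^ 2), le_max_left _ _,
    le_max_right _ _⟩
  have hM1 : 1 ≤ M' := hM₀.trans hM'0
  obtain ⟨η₁, hη₁, H6⟩ := H5 M' hM'0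
  obtain ⟨η₂, hη₂, H7⟩ := h5_trivial h C₀ (by linarith) hAQ hA hM1
  refine ⟨min η₁ η₂, lt_min hη₁ hη₂, ?_⟩
  intro ε' η δ ρ hε hε' hη hη' hδ hρ' u uu hcfg hdrop hTT x hx y hy t ht htρ hd c hc
  have hρ : 0 < ρ := hcfg.ρ_pos
  have hDx : ∀ z ∈ ball o (R * ρ), 0 ≤ Dt m n K p Q A₀ ρ t z := by
    intro z hz
    have hQ1 : 1 ≤ Q := hQ₀.trans ((le_max_left _ _).trans hQ)
    have := Dt_ge h (A₀ := A₀) ht (show t ≤ Q * ρ ^ 2 by nlinarith [sq_nonneg ρ]) z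
    exact le_trans (by positivity) this
  have hsub : ball o (R / 4 * ρ) ⊆ ball o (R * ρ) := by
    apply ball_subset_ball
    nlinarith
  have hD : 0 ≤ Dt m n K p Q A₀ ρ t x + Dt m n K p Q A₀ ρ t y :=
    add_nonneg (hDx x (hsub hx)) (hDx y (hsub hy))
  by_cases hcase : ρ ^ 2 / M' ^ 2 ≤ t
  · refine (H7 R η ρ hη (hη'.trans (min_le_right _ _)) u uu hcfg x (hsub hx) y (hsub hy) t hcase htρ
      hd c hc).trans ?_
    exact mul_le_mul_of_nonneg_right (mul_le_mul_of_nonneg_right (le_max_right _ _) ht.le) hD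
  · push Not at hcase
    have hst : 0 < √t := Real.sqrt_pos.2 ht
    have h1 : √t < ρ / M' := by
      have : √t < √((ρ / M') ^ 2) := Real.sqrt_lt_sqrt ht.le (by rw [div_pow]; exact hcase)
      rwa [Real.sqrt_sq (by positivity)] at this
    obtain ⟨r₀, k, hr1, hr2, hk, hrr⟩ := exists_level hΛ hM'Λ hρ hst h1
    have htl : tl r₀ Λ k = t := by
      show rr r₀ Λ k ^ 2 = t
      rw [hrr, Real.sq_sqrt ht.le]
    have h2 := H6 ε' η δ ρ hε hε' hη (hη'.trans (min_le_left _ _)) (hδ.trans (min_le_left _ _))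
      (hρ'.trans (min_le_left _ _)) u uu hcfg hdrop hTT x hx y hy r₀ hr1 hr2 k hk
      (by rw [hrr]; exact hd) c (by rw [htl]; exact hc)
    rw [htl] at h2
    refine h2.trans ?_
    rw [mul_assoc]
    exact mul_le_mul_of_nonneg_right (le_max_left _ _) (mul_nonneg ht.le hD)

end Vale.Agent.P242.H200
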