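import Vale.Agent.P233.Bd3.B1

/-! P242, package A-RANK (helper200), part 1: self-improvement of `BE(κ,N)` with the dimension term
(no kernel): for test functions the Gram determinant of `n + 1` gradients vanishes if `N = n`. -/

set_option linter.all false

open MeasureTheory Filter Topology
open scoped ENNReal NNReal

namespace Vale.Agent.P242.H200

open Vale.Agent.P233

variable {M : Type*} [MeasurableSpace M] {m : Measure M} {C : Calc m}

/-- `NN` with the dimension term -/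
noncomputable def ND (C : Calc m) (κ N : ℝ) (f g φ : M →ₘ[m] ℝ) : ℝ :=
  C.NN κ f g φ - N⁻¹ * I (φ * (C.lap f * C.lap g))

section
variable (hC : IsGamma C) {κ N : ℝ} (hN : 0 < N) (hB : C.BE κ N)
variable {f g h φ ψ : M →ₘ[m] ℝ}

include hC hN hB

theorem bochner_weakN (hf : f ∈ C.Test) (hφ : φ ∈ C.A) (h0 : 0 ≤ φ) :
    I (φ * (C.Γ f (C.lap f) + κ • C.Γ f f + N⁻¹ • C.lap f ^ 2))
      ≤ -((2 : ℝ)⁻¹ * I (C.Γ (C.Γ f f) φ)) := by
  have hBi := hC.bei hN hB
  have hD := hC.toIsDir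
  have hfA := hC.test_A hf
  have hfL := hC.test_isLap hf
  have hfLW := hC.test_lap_mem hf
  have hv := (hC.Γ_mem hBi hf hf).1
  have hφ2 := hC.memLp φ hφ.1
  obtain ⟨K, hK⟩ := mem_top_iff.1 hφ.2
  have hl : ∀ n : ℕ, (0 : ℝ) < ((n : ℝ) + 1)⁻¹ := fun n => by positivity
  set G := C.Γ f (C.lap f) + κ • C.Γ f f + N⁻¹ • C.lap f ^ 2 with hG
  have hG1 : MemLp G 1 m := mem_add (hC.bracket_mem κ hfA.1 hfLW)
    (mem_smul _ (mem_sq (hC.memLp _ hfLW)))
  set u : ℕ → M →ₘ[m] ℝ := fun n => C.J ((n : ℝ) + 1)⁻¹ φ with hu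
  have huW : ∀ n, u n ∈ C.W := fun n => hD.J_mem (hl n) hφ2
  have huK : ∀ n, ∀ᵐ x ∂m, |u n x| ≤ K := fun n => hD.J_bdd (hl n) hφ2 hK
  have hut : ∀ n, MemLp (u n) ∞ m := fun n => mem_top_iff.2 ⟨K, huK n⟩
  have hlimW : Tendsto (fun n => C.nrm2 (u n - φ)) atTop (𝓝 0) := hD.J_tendsto_W hφ.1
  have key : ∀ n, I (u n * G) ≤ -((2 : ℝ)⁻¹ * I (C.Γ (C.Γ f f) (u n))) := by
    intro n
    have hL := hD.J_isLap (hl n) hφ2
    have h1 := hB _ _ _ _ hfL hfLW hL (hD.J_nonneg (hl n) hφ2 h0) (hut n)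
      (mem_smul _ (mem_sub (hut n) hφ.2))
    have h2 : I (C.Γ (u n) (C.Γ f f)) =
        -I ((((n : ℝ) + 1)⁻¹)⁻¹ • (u n - φ) * C.Γ f f) := hL.2.2 _ hv
    rw [hD.symm _ (huW n) _ hv, mul_comm _ (C.Γ f f)] at h2
    rw [h2]
    have h3 : I (u n * G) ≤ I ((2 : ℝ)⁻¹ • (C.Γ f f * ((((n : ℝ) + 1)⁻¹)⁻¹ • (u n - φ)))) := h1
    rw [I_smul] at h3
    linarith only [h3]
  obtain ⟨ns, hns, hae⟩ := exists_subseq_of_I_sq (fun n => hC.memLp _ (huW n)) hφ2
    (hD.tendsto_I_sq_of_nrm2 huW hφ.1 hlimW)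
  have l1 : Tendsto (fun n => I (u (ns n) * G)) atTop (𝓝 (I (φ * G))) := by
    refine I_tendsto_of_dominated (G := fun x => K * |G x|) ((int_of_mem hG1).abs.const_mul K)
      (fun n => ?_) ?_
    · filter_upwards [mul_ae (u (ns n)) G, huK (ns n)] with x a1 a2
      rw [a1, abs_mul]
      exact mul_le_mul_of_nonneg_right a2 (abs_nonneg _)
    · filter_upwards [ae_all_iff.2 fun n => mul_ae (u (ns n)) G, mul_ae φ G, hae] with x a1 a2 a3
      simp_rw [a1, a2]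
      exact a3.mul_const _
  have l2 : Tendsto (fun n => I (C.Γ (C.Γ f f) (u n))) atTop (𝓝 (I (C.Γ (C.Γ f f) φ))) := by
    rw [tendsto_iff_dist_tendsto_zero]
    have h1 := hD.tendsto_E_of_nrm2 huW hφ.1 hlimW
    have h2 : Tendsto (fun n => Real.sqrt (I (C.Γ (C.Γ f f) (C.Γ f f))) *
        Real.sqrt (I (C.Γ (u n - φ) (u n - φ)))) atTop (𝓝 0) := by
      have := ((Real.continuous_sqrt.tendsto 0).comp h1).const_mul
        (Real.sqrt (I (C.Γ (C.Γ f f) (C.Γ f f))))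
      simpa [Function.comp_def] using this
    refine squeeze_zero (fun n => dist_nonneg) (fun n => ?_) h2
    rw [Real.dist_eq, ← I_sub (hD.Γ_mem1 hv (huW n)) (hD.Γ_mem1 hv hφ.1),
      ← hD.Γ_sub_right hv (huW n) hφ.1]
    exact hD.E_abs_le hv (hD.sub_mem (huW n) hφ.1)
  have l3 : Tendsto (fun n => -((2 : ℝ)⁻¹ * I (C.Γ (C.Γ f f) (u (ns n))))) atTop
      (𝓝 (-((2 : ℝ)⁻¹ * I (C.Γ (C.Γ f f) φ)))) :=
    ((l2.comp hns.tendsto_atTop).const_mul _).neg
  exact le_of_tendsto_of_tendsto' l1 l3 fun n => key (ns n)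

theorem ND_nonneg (hf : f ∈ C.Test) (hφ : φ ∈ C.A) (h0 : 0 ≤ φ) : 0 ≤ ND C κ N f f φ := by
  have hBi := hC.bei hN hB
  have h1 := bochner_weakN hC hN hB hf hφ h0
  obtain ⟨n1, n2, n3, n4⟩ := hC.NN_int1 hBi hf hf hφ
  have e : φ * (C.Γ f (C.lap f) + κ • C.Γ f f + N⁻¹ • C.lap f ^ 2)
      = (2 : ℝ)⁻¹ • (φ * (C.Γ f (C.lap f) + C.Γ f (C.lap f))) + κ • (φ * C.Γ f f)
        + N⁻¹ • (φ * (C.lap f * C.lap f)) := by algebra
  rw [e, I_add (mem_add (mem_smul _ n2) (mem_smul _ n3)) (mem_smul _ n4),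
    I_add (mem_smul _ n2) (mem_smul _ n3), I_smul, I_smul, I_smul] at h1
  unfold ND Calc.NN
  linarith only [h1]

theorem ND_symm (hf : f ∈ C.Test) (hg : g ∈ C.Test) : ND C κ N f g φ = ND C κ N g f φ := by
  have hBi := hC.bei hN hB
  unfold ND
  rw [hC.NN_symm hBi hf hg, mul_comm (C.lap f)]

theorem ND_add_left (hf : f ∈ C.Test) (hg : g ∈ C.Test) (hh : h ∈ C.Test) (hφ : φ ∈ C.A) :
    ND C κ N (f + g) h φ = ND C κ N f h φ + ND C κ N g h φ := by
  have hBi := hC.bei hN hB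
  obtain ⟨-, -, -, n4⟩ := hC.NN_int1 hBi hf hh hφ
  obtain ⟨-, -, -, n5⟩ := hC.NN_int1 hBi hg hh hφ
  unfold ND
  rw [hC.NN_add_left hBi hf hg hh hφ, hC.lap_add hBi hf hg, add_mul, mul_add, I_add n4 n5]
  ring

theorem ND_smul_left (c : ℝ) (hf : f ∈ C.Test) (hh : h ∈ C.Test) (hφ : φ ∈ C.A) :
    ND C κ N (c • f) h φ = c * ND C κ N f h φ := by
  have hBi := hC.bei hN hB
  unfold ND
  rw [hC.NN_smul_left hBi c hf hh hφ, hC.lap_smul hBi c hf, smul_mul_assoc, mul_smul_comm, I_smul]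
  ring

theorem ND_add_φ (hf : f ∈ C.Test) (hg : g ∈ C.Test) (hφ : φ ∈ C.A) (hψ : ψ ∈ C.A) :
    ND C κ N f g (φ + ψ) = ND C κ N f g φ + ND C κ N f g ψ := by
  have hBi := hC.bei hN hB
  obtain ⟨-, -, -, n4⟩ := hC.NN_int1 hBi hf hg hφ
  obtain ⟨-, -, -, n5⟩ := hC.NN_int1 hBi hf hg hψ
  unfold ND
  rw [hC.NN_add_φ hBi hf hg hφ hψ, add_mul, I_add n4 n5]
  ring

theorem ND_smul_φ (c : ℝ) (hf : f ∈ C.Test) (hg : g ∈ C.Test) (hφ : φ ∈ C.A) :
    ND C κ N f g (c • φ) = c * ND C κ N f g φ := by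
  have hBi := hC.bei hN hB
  unfold ND
  rw [hC.NN_smul_φ hBi c hf hg hφ, smul_mul_assoc, I_smul]
  ring

theorem ND_sum_left {ι : Type*} (s : Finset ι) {F : ι → M →ₘ[m] ℝ} (hF : ∀ i, F i ∈ C.Test)
    (c : ι → ℝ) (hh : h ∈ C.Test) (hφ : φ ∈ C.A) :
    ND C κ N (∑ i ∈ s, c i • F i) h φ = ∑ i ∈ s, c i * ND C κ N (F i) h φ := by
  have hBi := hC.bei hN hB
  classical
  induction s using Finset.induction_on with
  | empty =>
    have := ND_smul_left hC hN hB 0 (hC.test_zero hBi) hh hφ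
    simpa using this
  | insert i s hi ih =>
    rw [Finset.sum_insert hi, Finset.sum_insert hi,
      ND_add_left hC hN hB (hC.test_smul hBi _ (hF i))
        (hC.test_sum hBi s (fun i => hC.test_smul hBi _ (hF i))) hh hφ,
      ih, ND_smul_left hC hN hB _ (hF i) hh hφ]

theorem ND_master {ι : Type*} [Fintype ι] [DecidableEq ι] {F : ι → M →ₘ[m] ℝ}
    (hF : ∀ i, F i ∈ C.Test) {a : ι → M →ₘ[m] ℝ} (ha : ∀ i, a i ∈ C.AP) (hφ : φ ∈ C.A)
    (hφ0 : 0 ≤ φ) : 0 ≤ ∑ i, ∑ j, ND C κ N (F i) (F j) (φ * (a i * a j)) := by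
  have hBi := hC.bei hN hB
  refine hC.master_fintype (Q := fun i j φ => ND C κ N (F i) (F j) φ) ?_ ?_ ?_ ha hφ hφ0
  · intro i j φ hφ ψ hψ
    exact ND_add_φ hC hN hB (hF i) (hF j) hφ hψ
  · intro i j c φ hφ
    exact ND_smul_φ hC hN hB c (hF i) (hF j) hφ
  · intro c φ hφ hφ0
    have hS := hC.test_sum hBi Finset.univ (fun i => hC.test_smul hBi (c i) (hF i))
    have h1 := ND_nonneg hC hN hB hS hφ hφ0
    rw [ND_sum_left hC hN hB _ hF c hS hφ] at h1
    have h2 : ∀ i, ND C κ N (F i) (∑ j, c j • F j) φ = ∑ j, c j * ND C κ N (F i) (F j) φ := by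
      intro i
      rw [ND_symm hC hN hB (hF i) hS, ND_sum_left hC hN hB _ hF c (hF i) hφ]
      exact Finset.sum_congr rfl fun j _ => by rw [ND_symm hC hN hB (hF j) (hF i)]
    simp only [h2, Finset.mul_sum] at h1
    convert h1 using 1
    refine Finset.sum_congr rfl fun i _ => Finset.sum_congr rfl fun j _ => ?_
    ring

end

/-! ### `AP` is a ring -/

theorem AP_add (hC : IsDir C) {z w : M →ₘ[m] ℝ} (hz : z ∈ C.AP) (hw : w ∈ C.AP) :
    z + w ∈ C.AP := by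
  obtain ⟨c, hc⟩ := hz
  obtain ⟨d, hd⟩ := hw
  refine ⟨c + d, ?_⟩
  have : z + w - (c + d) • (1 : M →ₘ[m] ℝ) = (z - c • 1) + (w - d • 1) := by algebra
  rw [this]; exact hC.A_add hc hd

theorem AP_mul (hC : IsDir C) {z w : M →ₘ[m] ℝ} (hz : z ∈ C.AP) (hw : w ∈ C.AP) :
    z * w ∈ C.AP := by
  obtain ⟨c, hc⟩ := hz
  obtain ⟨d, hd⟩ := hw
  refine ⟨c * d, ?_⟩
  have : z * w - (c * d) • (1 : M →ₘ[m] ℝ)
      = ((z - c • 1) * (w - d • 1) + d • (z - c • 1)) + c • (w - d • 1) := by algebra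
  rw [this]
  exact hC.A_add (hC.A_add (hC.mul_mem_A hc hd) (hC.A_smul _ hc)) (hC.A_smul _ hd)

theorem AP_neg (hC : IsDir C) {z : M →ₘ[m] ℝ} (hz : z ∈ C.AP) : -z ∈ C.AP := by
  obtain ⟨c, hc⟩ := hz
  refine ⟨-c, ?_⟩
  have : -z - (-c) • (1 : M →ₘ[m] ℝ) = (-1 : ℝ) • (z - c • 1) := by algebra
  rw [this]; exact hC.A_smul _ hc

/-- the ring `AP` -/
def apRing (hC : IsDir C) : Subring (M →ₘ[m] ℝ) where
  carrier := C.AP
  mul_mem' := AP_mul hC
  one_mem' := by simpa using hC.AP_const 1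
  add_mem' := AP_add hC
  zero_mem' := hC.AP_of_A hC.A_zero
  neg_mem' := AP_neg hC

theorem AP_det (hC : IsDir C) {k : ℕ} {G : Matrix (Fin k) (Fin k) (M →ₘ[m] ℝ)}
    (h : ∀ i j, G i j ∈ C.AP) : G.det ∈ C.AP := by
  have : G.det ∈ apRing hC := by
    rw [Matrix.det_apply]
    refine Subring.sum_mem _ fun σ _ => ?_
    refine Subring.zsmul_mem _ (Subring.prod_mem _ fun i _ => h _ _) _
  exact this

theorem AP_adj (hC : IsDir C) {k : ℕ} {G : Matrix (Fin k) (Fin k) (M →ₘ[m] ℝ)}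
    (h : ∀ i j, G i j ∈ C.AP) (i j : Fin k) : G.adjugate i j ∈ C.AP := by
  rw [Matrix.adjugate_apply]
  refine AP_det hC fun a b => ?_
  rw [Matrix.updateRow_apply]
  split_ifs with hab
  · by_cases hb : b = i
    · subst hb
      rw [Pi.single_eq_same]
      have := hC.AP_const 1
      simpa using this
    · rw [Pi.single_eq_of_ne hb]
      exact hC.AP_of_A hC.A_zero
  · exact h a b


/-! ### linear algebra in a commutative ring -/

section alg
variable {R : Type*} [CommRing R] {k : ℕ} {G S : Matrix (Fin k) (Fin k) R} {D : R}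

theorem alg1 (hSG : ∀ a b, ∑ c, S a c * G c b = if a = b then D else 0)
    (hGS : ∀ a b, ∑ c, G a c * S c b = if a = b then D else 0) :
    ∑ p : Fin k × Fin k, ∑ q : Fin k × Fin k, S p.1 p.2 * S q.1 q.2 * (G q.1 p.1 * G q.2 p.2)
      = k * (D * D) := by
  simp only [Fintype.sum_prod_type]
  have e : ∀ a b c d : Fin k, S a b * S c d * (G c a * G d b) = (G c a * S a b) * (S c d * G d b) := by
    intro a b c d; ring
  simp only [e]
  calc ∑ a, ∑ b, ∑ c, ∑ d, (G c a * S a b) * (S c d * G d b)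
      = ∑ a, ∑ b, ∑ c, (G c a * S a b) * (if c = b then D else 0) := by
        refine Finset.sum_congr rfl fun a _ => Finset.sum_congr rfl fun b _ =>
          Finset.sum_congr rfl fun c _ => ?_
        rw [← Finset.mul_sum, hSG]
    _ = ∑ b, ∑ c, (if c = b then D else 0) * (if c = b then D else 0) := by
        rw [Finset.sum_comm]
        refine Finset.sum_congr rfl fun b _ => ?_
        rw [Finset.sum_comm]
        refine Finset.sum_congr rfl fun c _ => ?_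
        rw [← Finset.sum_mul, hGS]
    _ = k * (D * D) := by
        simp

theorem alg2 (hs : ∀ a b, G a b = G b a)
    (hSG : ∀ a b, ∑ c, S a c * G c b = if a = b then D else 0) :
    ∑ p : Fin k × Fin k, ∑ q : Fin k × Fin k, S p.1 p.2 * S q.1 q.2 * (G q.1 p.2 * G q.2 p.1)
      = k * (D * D) := by
  simp only [Fintype.sum_prod_type]
  have e : ∀ a b c d : Fin k, S a b * S c d * (G c b * G d a) = (S a b * G b c) * (S c d * G d a) := by
    intro a b c d; rw [hs c b]; ring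
  simp only [e]
  calc ∑ a, ∑ b, ∑ c, ∑ d, (S a b * G b c) * (S c d * G d a)
      = ∑ a, ∑ b, ∑ c, (S a b * G b c) * (if c = a then D else 0) := by
        refine Finset.sum_congr rfl fun a _ => Finset.sum_congr rfl fun b _ =>
          Finset.sum_congr rfl fun c _ => ?_
        rw [← Finset.mul_sum, hSG]
    _ = ∑ a, ∑ c, (if a = c then D else 0) * (if c = a then D else 0) := by
        refine Finset.sum_congr rfl fun a _ => ?_
        rw [Finset.sum_comm]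
        refine Finset.sum_congr rfl fun c _ => ?_
        rw [← Finset.sum_mul, hSG]
    _ = k * (D * D) := by
        simp

theorem alg3 (hs : ∀ a b, G a b = G b a)
    (hSG : ∀ a b, ∑ c, S a c * G c b = if a = b then D else 0) :
    ∑ p : Fin k × Fin k, ∑ q : Fin k × Fin k, S p.1 p.2 * S q.1 q.2 * (G p.1 p.2 * G q.1 q.2)
      = k * k * (D * D) := by
  have h1 : ∑ p : Fin k × Fin k, S p.1 p.2 * G p.1 p.2 = k * D := by
    rw [Fintype.sum_prod_type]
    have : ∀ a : Fin k, ∑ b, S a b * G a b = D := by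
      intro a
      have h := hSG a a
      rw [if_pos rfl] at h
      rw [← h]
      exact Finset.sum_congr rfl fun b _ => by rw [hs a b]
    simp [this]
  have e : ∀ p q : Fin k × Fin k, S p.1 p.2 * S q.1 q.2 * (G p.1 p.2 * G q.1 q.2)
      = (S p.1 p.2 * G p.1 p.2) * (S q.1 q.2 * G q.1 q.2) := by
    intro p q; ring
  simp only [e]
  rw [← Finset.sum_mul_sum, h1]
  ring

end alg

section
variable (hC : IsGamma C) {κ N : ℝ} (hN : 0 < N) (hB : C.BE κ N)
variable {f g h φ ψ : M →ₘ[m] ℝ}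

include hC hN hB

/-- a block of three terms -/
theorem blockN (hf : f ∈ C.Test) (hh : h ∈ C.Test) (hg : g ∈ C.Test) {s a : M →ₘ[m] ℝ}
    (hs : s ∈ C.AP) (ha : a ∈ C.AP) (hφ : φ ∈ C.A) :
    ND C κ N (f * h) g (φ * (s * a)) + ND C κ N h g (φ * (-(s * f) * a))
      + ND C κ N f g (φ * (-(s * h) * a))
      = I (φ * (s * a) * (C.KK g f h - (2 * N⁻¹) • (C.Γ f h * C.lap g))) := by
  have hBi := hC.bei hN hB
  have hψ : φ * (s * a) ∈ C.A := by
    rw [← mul_assoc]; exact hC.A_mul_AP (hC.A_mul_AP hφ hs) ha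
  have fA := hC.test_A hf
  have hA := hC.test_A hh
  have h1 := hC.NN_mul (κ := κ) hBi hf hh hg hψ
  have e1 : φ * (-(s * f) * a) = (-1 : ℝ) • (f * (φ * (s * a))) := by algebra
  have e2 : φ * (-(s * h) * a) = (-1 : ℝ) • (h * (φ * (s * a))) := by algebra
  have hfψ := hC.mul_mem_A fA hψ
  have hhψ := hC.mul_mem_A hA hψ
  obtain ⟨-, -, -, i1⟩ := hC.NN_int1 hBi (hC.test_mul hBi hf hh) hg hψ
  obtain ⟨-, -, -, i2⟩ := hC.NN_int1 hBi hh hg hfψ
  obtain ⟨-, -, -, i3⟩ := hC.NN_int1 hBi hf hg hhψ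
  rw [e1, e2, ND_smul_φ hC hN hB _ hh hg hfψ, ND_smul_φ hC hN hB _ hf hg hhψ]
  unfold ND
  rw [h1]
  have hK : MemLp (φ * (s * a) * C.KK g f h) 1 m :=
    mem_mul_22 (hC.memLp _ hψ.1) (hC.KK_mem2 hBi hf hh hg)
  have e3 : φ * (s * a) * (C.KK g f h - (2 * N⁻¹) • (C.Γ f h * C.lap g))
      = ((φ * (s * a) * C.KK g f h - N⁻¹ • (φ * (s * a) * (C.lap (f * h) * C.lap g)))
        + N⁻¹ • (f * (φ * (s * a)) * (C.lap h * C.lap g)))
        + N⁻¹ • (h * (φ * (s * a)) * (C.lap f * C.lap g)) := by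
    rw [hC.lap_mul hBi hf hh]
    algebra
  rw [e3, I_add (mem_add (mem_sub hK (mem_smul _ i1)) (mem_smul _ i2)) (mem_smul _ i3),
    I_add (mem_sub hK (mem_smul _ i1)) (mem_smul _ i2), I_sub hK (mem_smul _ i1), I_smul, I_smul,
    I_smul]
  ring

/-- the key inequality with the dimension term, for `b = 0` -/
theorem tensorN {ι : Type*} [Fintype ι] [DecidableEq ι] {F H s : ι → M →ₘ[m] ℝ}
    (hF : ∀ i, F i ∈ C.Test) (hH : ∀ i, H i ∈ C.Test) (hs : ∀ i, s i ∈ C.AP)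
    (hφ : φ ∈ C.A) (hφ0 : 0 ≤ φ) :
    0 ≤ ∑ i, ∑ j, I (φ * (s i * s j *
      (C.MM (F i) (H i) (F j) (H j) - (2 * N⁻¹) • (C.Γ (F i) (H i) * C.Γ (F j) (H j))))) := by
  have hBi := hC.bei hN hB
  set G : ι × Fin 3 → M →ₘ[m] ℝ :=
    fun p => (![F p.1 * H p.1, H p.1, F p.1] : Fin 3 → M →ₘ[m] ℝ) p.2 with hG
  set a : ι × Fin 3 → M →ₘ[m] ℝ :=
    fun p => (![s p.1, -(s p.1 * F p.1), -(s p.1 * H p.1)] : Fin 3 → M →ₘ[m] ℝ) p.2 with ha
  have hGT : ∀ o, G o ∈ C.Test := by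
    rintro ⟨i, t⟩
    fin_cases t
    · exact hC.test_mul hBi (hF i) (hH i)
    · exact hH i
    · exact hF i
  have haA : ∀ o, a o ∈ C.AP := by
    rintro ⟨i, t⟩
    fin_cases t
    · exact hs i
    · exact AP_neg hC.toIsDir (AP_mul hC.toIsDir (hs i) (hC.AP_of_A (hC.test_A (hF i))))
    · exact AP_neg hC.toIsDir (AP_mul hC.toIsDir (hs i) (hC.AP_of_A (hC.test_A (hH i))))
  have key := ND_master hC hN hB hGT haA hφ hφ0
  have hblock : ∀ (i : ι) (o : ι × Fin 3),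
      ∑ t : Fin 3, ND C κ N (G (i, t)) (G o) (φ * (a (i, t) * a o))
        = I (φ * (s i * a o) * (C.KK (G o) (F i) (H i)
          - (2 * N⁻¹) • (C.Γ (F i) (H i) * C.lap (G o)))) := by
    intro i o
    rw [Fin.sum_univ_three]
    exact blockN hC hN hB (hF i) (hH i) (hGT o) (hs i) (haA o) hφ
  have hsum : ∑ o, ∑ o', ND C κ N (G o) (G o') (φ * (a o * a o'))
      = 2 * ∑ i, ∑ j, I (φ * (s i * s j *
      (C.MM (F i) (H i) (F j) (H j) - (2 * N⁻¹) • (C.Γ (F i) (H i) * C.Γ (F j) (H j))))) := by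
    have this : ∀ o : ι × Fin 3, ∑ p : ι × Fin 3, ND C κ N (G p) (G o) (φ * (a p * a o))
        = ∑ i, I (φ * (s i * a o) * (C.KK (G o) (F i) (H i)
          - (2 * N⁻¹) • (C.Γ (F i) (H i) * C.lap (G o)))) := by
      intro o
      rw [Fintype.sum_prod_type]
      exact Finset.sum_congr rfl fun i _ => hblock i o
    have h2 : ∀ j i : ι, ∑ t : Fin 3,
        I (φ * (s i * a (j, t)) * (C.KK (G (j, t)) (F i) (H i)
          - (2 * N⁻¹) • (C.Γ (F i) (H i) * C.lap (G (j, t)))))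
        = 2 * I (φ * (s i * s j *
      (C.MM (F i) (H i) (F j) (H j) - (2 * N⁻¹) • (C.Γ (F i) (H i) * C.Γ (F j) (H j))))) := by
      intro j i
      rw [Fin.sum_univ_three]
      have hint : ∀ t : Fin 3, MemLp (φ * (s i * a (j, t)) * (C.KK (G (j, t)) (F i) (H i)
          - (2 * N⁻¹) • (C.Γ (F i) (H i) * C.lap (G (j, t)))) : M →ₘ[m] ℝ) 1 m := by
        intro t
        refine mem_mul_22 ?_ (mem_sub (hC.KK_mem2 hBi (hF i) (hH i) (hGT _)) (mem_smul _ ?_))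
        · rw [← mul_assoc]
          exact hC.memLp _ (hC.A_mul_AP (hC.A_mul_AP hφ (hs i)) (haA _)).1
        · exact mem_mul_top (hC.Γ_mem hBi (hF i) (hH i)).2 (hC.memLp _ (hC.test_lap_mem (hGT _)))
      rw [← I_add (hint 0) (hint 1), ← I_add (mem_add (hint 0) (hint 1)) (hint 2), ← I_smul]
      congr 1
      have g0 : G (j, 0) = F j * H j := rfl
      have g1 : G (j, 1) = H j := rfl
      have g2 : G (j, 2) = F j := rfl
      have a0 : a (j, 0) = s j := rfl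
      have a1 : a (j, 1) = -(s j * F j) := rfl
      have a2 : a (j, 2) = -(s j * H j) := rfl
      rw [g0, g1, g2, a0, a1, a2, hC.KK_mul hBi (hF i) (hH i) (hF j) (hH j),
        hC.lap_mul hBi (hF j) (hH j)]
      algebra
    have h3 : ∀ j : ι, ∑ t : Fin 3, ∑ i : ι,
        I (φ * (s i * a (j, t)) * (C.KK (G (j, t)) (F i) (H i)
          - (2 * N⁻¹) • (C.Γ (F i) (H i) * C.lap (G (j, t)))))
        = ∑ i, 2 * I (φ * (s i * s j *
      (C.MM (F i) (H i) (F j) (H j) - (2 * N⁻¹) • (C.Γ (F i) (H i) * C.Γ (F j) (H j))))) := by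
      intro j
      rw [Finset.sum_comm]
      exact Finset.sum_congr rfl fun i _ => h2 j i
    rw [Finset.sum_comm, Fintype.sum_prod_type]
    simp only [this, h3, ← Finset.mul_sum]
    rw [Finset.sum_comm]
  rw [hsum] at key
  linarith

/-- (A5) for test functions: `k > N` gradients are linearly dependent a.e. -/
theorem rank_test {k : ℕ} (hk : N < k) {f : Fin k → M →ₘ[m] ℝ} (hf : ∀ i, f i ∈ C.Test) :
    (Matrix.of fun a b => C.Γ (f a) (f b) : Matrix (Fin k) (Fin k) (M →ₘ[m] ℝ)).det = 0 := by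
  have hBi := hC.bei hN hB
  set G : Matrix (Fin k) (Fin k) (M →ₘ[m] ℝ) := Matrix.of fun a b => C.Γ (f a) (f b) with hG
  have hGe : ∀ a b, G a b = C.Γ (f a) (f b) := fun a b => rfl
  have hGs : ∀ a b, G a b = G b a := fun a b =>
    hC.symm _ (hC.test_A (hf a)).1 _ (hC.test_A (hf b)).1
  have hGA : ∀ a b, G a b ∈ C.AP := fun a b => hC.AP_of_A (hC.Γ_mem hBi (hf a) (hf b))
  set S := G.adjugate with hS
  have hSA : ∀ a b, S a b ∈ C.AP := AP_adj hC.toIsDir hGA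
  set D := G.det with hD
  have hDA : D ∈ C.AP := AP_det hC.toIsDir hGA
  have hSG : ∀ a b, ∑ c, S a c * G c b = if a = b then D else 0 := by
    intro a b
    have := congrFun (congrFun (Matrix.adjugate_mul G) a) b
    rw [Matrix.mul_apply] at this
    rw [this, Matrix.smul_apply, Matrix.one_apply, smul_eq_mul]
    split_ifs <;> simp [hD]
  have hGS : ∀ a b, ∑ c, G a c * S c b = if a = b then D else 0 := by
    intro a b
    have := congrFun (congrFun (Matrix.mul_adjugate G) a) b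
    rw [Matrix.mul_apply] at this
    rw [this, Matrix.smul_apply, Matrix.one_apply, smul_eq_mul]
    split_ifs <;> simp [hD]
  -- the pointwise identity
  have hid : ∑ p : Fin k × Fin k, ∑ q : Fin k × Fin k, S p.1 p.2 * S q.1 q.2 *
      (C.MM (f p.1) (f p.2) (f q.1) (f q.2)
        - (2 * N⁻¹) • (C.Γ (f p.1) (f p.2) * C.Γ (f q.1) (f q.2)))
      = (2 * k * (1 - N⁻¹ * k)) • (D * D) := by
    have e : ∀ p q : Fin k × Fin k, S p.1 p.2 * S q.1 q.2 *
      (C.MM (f p.1) (f p.2) (f q.1) (f q.2)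
        - (2 * N⁻¹) • (C.Γ (f p.1) (f p.2) * C.Γ (f q.1) (f q.2)))
        = S p.1 p.2 * S q.1 q.2 * (G q.1 p.1 * G q.2 p.2)
          + S p.1 p.2 * S q.1 q.2 * (G q.1 p.2 * G q.2 p.1)
          + (-(2 * N⁻¹)) • (S p.1 p.2 * S q.1 q.2 * (G p.1 p.2 * G q.1 q.2)) := by
      intro p q
      simp only [hGe, Calc.MM]
      algebra
    simp only [e, Finset.sum_add_distrib, ← Finset.smul_sum]
    rw [alg1 hSG hGS, alg2 hGs hSG, alg3 hGs hSG]
    have c1 : ((k : M →ₘ[m] ℝ)) = (k : ℝ) • (1 : M →ₘ[m] ℝ) := by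
      rw [Nat.cast_smul_eq_nsmul]; simp
    rw [c1]
    algebra
  have hDD : D * D ∈ C.AP := AP_mul hC.toIsDir hDA hDA
  have hle : ∀ φ ∈ C.A, 0 ≤ φ → I (φ * (D * D)) ≤ 0 := by
    intro φ hφ hφ0
    have h1 := tensorN hC hN hB (F := fun p : Fin k × Fin k => f p.1) (H := fun p => f p.2)
      (s := fun p => S p.1 p.2) (fun p => hf _) (fun p => hf _) (fun p => hSA _ _) hφ hφ0
    have hint : ∀ p q : Fin k × Fin k, MemLp (φ * (S p.1 p.2 * S q.1 q.2 *
      (C.MM (f p.1) (f p.2) (f q.1) (f q.2)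
        - (2 * N⁻¹) • (C.Γ (f p.1) (f p.2) * C.Γ (f q.1) (f q.2)))) : M →ₘ[m] ℝ) 1 m := by
      intro p q
      have hSS : φ * (S p.1 p.2 * S q.1 q.2) ∈ C.A :=
        hC.A_mul_AP hφ (AP_mul hC.toIsDir (hSA _ _) (hSA _ _))
      rw [← mul_assoc]
      refine mem_mul_top hSS.2 (mem_sub (hC.MM_mem1 hBi (hf _) (hf _) (hf _) (hf _))
        (mem_smul _ (mem_mul_top (hC.Γ_mem hBi (hf _) (hf _)).2
          (hC.Γ_mem1 (hC.test_A (hf _)).1 (hC.test_A (hf _)).1))))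
    have hsumI : ∀ (s : Finset (Fin k × Fin k)) (F : Fin k × Fin k → M →ₘ[m] ℝ),
        (∀ p, MemLp (F p) 1 m) → MemLp (∑ p ∈ s, F p : M →ₘ[m] ℝ) 1 m ∧
          ∑ p ∈ s, I (F p) = I (∑ p ∈ s, F p : M →ₘ[m] ℝ) := by
      intro s F hF
      classical
      induction s using Finset.induction_on with
      | empty =>
        rw [Finset.sum_empty, Finset.sum_empty]
        exact ⟨mem_zero, I_zero.symm⟩
      | insert i s hi ih =>
        rw [Finset.sum_insert hi, Finset.sum_insert hi, I_add (hF i) ih.1, ih.2]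
        exact ⟨mem_add (hF i) ih.1, rfl⟩
    have h2 : ∑ p : Fin k × Fin k, ∑ q : Fin k × Fin k, I (φ * (S p.1 p.2 * S q.1 q.2 *
      (C.MM (f p.1) (f p.2) (f q.1) (f q.2)
        - (2 * N⁻¹) • (C.Γ (f p.1) (f p.2) * C.Γ (f q.1) (f q.2)))))
        = I (φ * ((2 * k * (1 - N⁻¹ * k)) • (D * D))) := by
      simp only [fun p => (hsumI Finset.univ _ (hint p)).2]
      rw [(hsumI Finset.univ _ (fun p => (hsumI Finset.univ _ (hint p)).1)).2]
      congr 1
      rw [← hid]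
      simp only [Finset.mul_sum]
    rw [h2, mul_smul_comm, I_smul] at h1
    have hk0 : (0 : ℝ) < k := hN.trans hk
    have hneg : 2 * (k : ℝ) * (1 - N⁻¹ * k) < 0 := by
      have : 1 < N⁻¹ * k := by rw [← div_eq_inv_mul, one_lt_div hN]; exact hk
      nlinarith
    by_contra hcon
    push Not at hcon
    have := mul_neg_of_neg_of_pos hneg hcon
    linarith
  -- conclusion
  obtain ⟨η, h1, h2, h3⟩ := hC.cutoff
  have hηA : ∀ n, η n ∈ C.A := by
    intro n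
    refine ⟨(h1 n).1, mem_top_iff.2 ⟨1, ?_⟩⟩
    filter_upwards [nonneg_iff_ae.1 (h1 n).2.1, le_iff_ae.1 (h1 n).2.2.1, one_ae (M := M) (m := m)]
      with x a1 a2 a3
    rw [a3] at a2
    rw [abs_of_nonneg a1]; exact a2
  have hsq : ∀ n, 0 ≤ η n * η n * (D * D) := fun n =>
    mul_nonneg (mul_nonneg (h1 n).2.1 (h1 n).2.1) (by have := sq_nonneg' D; rwa [sq] at this)
  have hz : ∀ n, η n * η n * (D * D) = 0 := by
    intro n
    have hηη := hC.mul_mem_A (hηA n) (hηA n)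
    refine I_eq_zero_of_nonneg ?_ (hsq n)
      (le_antisymm (hle _ hηη (mul_nonneg (h1 n).2.1 (h1 n).2.1)) (I_nonneg (hsq n)))
    have e : η n * η n * (D * D) = (η n * D) * (η n * D) := by ring
    rw [e]
    have hD2 := hC.memLp _ (hC.A_mul_AP (hηA n) hDA).1
    exact mem_mul_22 hD2 hD2
  rw [eq_iff_ae]
  have hz' : ∀ᵐ x ∂m, ∀ n, η n x * η n x * (D x * D x) = 0 := by
    rw [ae_all_iff]
    intro n
    filter_upwards [eq_iff_ae.1 (hz n), mul_ae (η n * η n) (D * D), mul_ae D D,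
      mul_ae (η n) (η n), zero_ae (M := M) (m := m)] with x a1 a2 a3 a5 a4
    rw [← a3, ← a5, ← a2, a1, a4]
  filter_upwards [hz', h3, one_ae (M := M) (m := m), zero_ae (M := M) (m := m)] with x a1 a2 a3 a4
  have l := (a2.mul a2).mul_const (D x * D x)
  simp only [a1] at l
  have := tendsto_nhds_unique l tendsto_const_nhds
  rw [a4]
  have h0 : D x * D x = 0 := by simpa using this
  simpa using h0

end

end Vale.Agent.P242.H200
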