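import Vale.Agent.P242.H200.Rank

/-! P242, package A-RANK (helper200), part 2: Sobolev functions, pointwise forms. -/

set_option linter.all false

open MeasureTheory Filter Topology
open scoped ENNReal NNReal

namespace Vale.Agent.P242.H200

open Vale.Agent.P233

variable {M : Type*} [MeasurableSpace M] {m : Measure M} {C : Calc m}

/-! ### evaluation of determinants -/

theorem sum_ae' {ι : Type*} (s : Finset ι) (F : ι → M →ₘ[m] ℝ) :
    ⇑(∑ i ∈ s, F i : M →ₘ[m] ℝ) =ᵐ[m] fun x => ∑ i ∈ s, F i x := by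
  classical
  induction s using Finset.induction_on with
  | empty => simpa using zero_ae (M := M) (m := m)
  | insert i s hi ih =>
    rw [Finset.sum_insert hi]
    filter_upwards [add_ae (F i) (∑ i ∈ s, F i : M →ₘ[m] ℝ), ih] with x h1 h2
    rw [h1, h2, Finset.sum_insert hi]

theorem prod_ae' {ι : Type*} (s : Finset ι) (F : ι → M →ₘ[m] ℝ) :
    ⇑(∏ i ∈ s, F i : M →ₘ[m] ℝ) =ᵐ[m] fun x => ∏ i ∈ s, F i x := by
  classical
  induction s using Finset.induction_on with
  | empty => simpa using one_ae (M := M) (m := m)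
  | insert i s hi ih =>
    rw [Finset.prod_insert hi]
    filter_upwards [mul_ae (F i) (∏ i ∈ s, F i : M →ₘ[m] ℝ), ih] with x h1 h2
    rw [h1, h2, Finset.prod_insert hi]

theorem det_ae {k : ℕ} (G : Matrix (Fin k) (Fin k) (M →ₘ[m] ℝ)) :
    ⇑G.det =ᵐ[m] fun x => (Matrix.of fun a b => G a b x : Matrix (Fin k) (Fin k) ℝ).det := by
  rw [Matrix.det_apply]
  have h1 : ∀ σ : Equiv.Perm (Fin k), ∀ᵐ x ∂m,
      (Equiv.Perm.sign σ • ∏ i, G (σ i) i : M →ₘ[m] ℝ) x = Equiv.Perm.sign σ • ∏ i, G (σ i) i x := by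
    intro σ
    rcases Int.units_eq_one_or (Equiv.Perm.sign σ) with h | h
    · rw [h, one_smul]
      filter_upwards [prod_ae' Finset.univ (fun i => G (σ i) i)] with x hx
      rw [one_smul]; exact hx
    · rw [h]
      have e : ((-1 : ℤˣ) • ∏ i, G (σ i) i : M →ₘ[m] ℝ) = -(∏ i, G (σ i) i : M →ₘ[m] ℝ) := by
        simp [Units.smul_def]
      rw [e]
      filter_upwards [prod_ae' Finset.univ (fun i => G (σ i) i),
        neg_ae (∏ i, G (σ i) i : M →ₘ[m] ℝ)] with x hx hx2
      rw [hx2, hx]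
      simp [Units.smul_def]
  filter_upwards [sum_ae' Finset.univ (fun σ : Equiv.Perm (Fin k) =>
    (Equiv.Perm.sign σ • ∏ i, G (σ i) i : M →ₘ[m] ℝ)), ae_all_iff.2 h1] with x h2 h3
  rw [h2, Matrix.det_apply]
  exact Finset.sum_congr rfl fun σ _ => h3 σ

/-! ### approximation -/

section
variable (hC : IsGamma C) {κ N : ℝ} (hN : 0 < N) (hB : C.BE κ N)
variable {f g h φ ψ : M →ₘ[m] ℝ}

include hC hN hB

theorem exists_ae_seq [SigmaFinite m] {k : ℕ} {f : Fin k → M →ₘ[m] ℝ} (hf : ∀ i, f i ∈ C.W) :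
    ∃ g : ℕ → Fin k → M →ₘ[m] ℝ, (∀ n i, g n i ∈ C.Test) ∧
      ∀ᵐ x ∂m, ∀ i j, Tendsto (fun n => C.Γ (g n i) (g n j) x) atTop (𝓝 (C.Γ (f i) (f j) x)) := by
  have hBi := hC.bei hN hB
  have hD := hC.toIsDir
  have hex : ∀ n : ℕ, ∀ i, ∃ g ∈ C.Test, C.nrm2 (g - f i) < ((n : ℝ) + 1)⁻¹ :=
    fun n i => hC.test_dense hBi (hf i) (by positivity)
  choose g hg1 hg2 using hex
  have hgW : ∀ n i, g n i ∈ C.W := fun n i => (hC.test_A (hg1 n i)).1
  have hlim : ∀ i, Tendsto (fun n => C.nrm2 (g n i - f i)) atTop (𝓝 0) := by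
    intro i
    refine squeeze_zero (fun n => hD.nrm2_nonneg (hD.sub_mem (hgW n i) (hf i)))
      (fun n => (hg2 n i).le) ?_
    simpa using tendsto_one_div_add_atTop_nhds_zero_nat (𝕜 := ℝ)
  have hE : ∀ i, Tendsto (fun n => Real.sqrt (I (C.Γ (g n i - f i) (g n i - f i)))) atTop (𝓝 0) := by
    intro i
    have := (Real.continuous_sqrt.tendsto 0).comp
      (hD.tendsto_E_of_nrm2 (fun n => hgW n i) (hf i) (hlim i))
    simpa [Function.comp_def] using this
  -- pairwise L¹ bound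
  have hpair : ∀ n i j, ∫ x, |C.Γ (g n i) (g n j) x - C.Γ (f i) (f j) x| ∂m
      ≤ Real.sqrt (I (C.Γ (g n i - f i) (g n i - f i))) *
          (Real.sqrt (I (C.Γ (f j) (f j))) + Real.sqrt (I (C.Γ (g n j - f j) (g n j - f j))))
        + Real.sqrt (I (C.Γ (f i) (f i))) * Real.sqrt (I (C.Γ (g n j - f j) (g n j - f j))) := by
    intro n i j
    have d1 := hD.sub_mem (hgW n i) (hf i)
    have d2 := hD.sub_mem (hgW n j) (hf j)
    have b1 := hD.int_abs_Γ_le d1 (hgW n j)
    have b2 := hD.int_abs_Γ_le (hf i) d2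
    have b3 := hD.sqrt_E_add_le (hf j) d2
    have e3 : f j + (g n j - f j) = g n j := by abel
    rw [e3] at b3
    have b4 : ∫ x, |C.Γ (g n i) (g n j) x - C.Γ (f i) (f j) x| ∂m
        ≤ ∫ x, (|C.Γ (g n i - f i) (g n j) x| + |C.Γ (f i) (g n j - f j) x|) ∂m := by
      refine integral_mono_ae ?_ ?_ ?_
      · exact ((int_of_mem (hD.Γ_mem1 (hgW n i) (hgW n j))).sub
          (int_of_mem (hD.Γ_mem1 (hf i) (hf j)))).abs
      · exact (int_of_mem (hD.Γ_mem1 d1 (hgW n j))).abs.add (int_of_mem (hD.Γ_mem1 (hf i) d2)).abs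
      · have e1 := hD.Γ_sub_left (hgW n i) (hf i) (hgW n j)
        have e2 := hD.Γ_sub_right (hf i) (hgW n j) (hf j)
        filter_upwards [eq_iff_ae.1 e1, eq_iff_ae.1 e2,
          sub_ae (C.Γ (g n i) (g n j)) (C.Γ (f i) (g n j)),
          sub_ae (C.Γ (f i) (g n j)) (C.Γ (f i) (f j))] with x h1 h2 h3 h4
        rw [h1, h2, h3, h4]
        have := abs_add_le (C.Γ (g n i) (g n j) x - C.Γ (f i) (g n j) x)
          (C.Γ (f i) (g n j) x - C.Γ (f i) (f j) x)
        refine le_trans (le_of_eq ?_) this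
        congr 1; ring
    rw [integral_add (int_of_mem (hD.Γ_mem1 d1 (hgW n j))).abs
      (int_of_mem (hD.Γ_mem1 (hf i) d2)).abs] at b4
    have p1 := mul_le_mul_of_nonneg_left b3 (Real.sqrt_nonneg (I (C.Γ (g n i - f i) (g n i - f i))))
    linarith
  have hpl : ∀ i j, Tendsto (fun n => ∫ x, |C.Γ (g n i) (g n j) x - C.Γ (f i) (f j) x| ∂m) atTop
      (𝓝 0) := by
    intro i j
    refine squeeze_zero (fun n => integral_nonneg fun x => abs_nonneg _) (fun n => hpair n i j) ?_
    have := ((hE i).mul ((tendsto_const_nhds (x := Real.sqrt (I (C.Γ (f j) (f j))))).add (hE j))).add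
      ((hE j).const_mul (Real.sqrt (I (C.Γ (f i) (f i)))))
    simpa using this
  set Φ : ℕ → M → ℝ := fun n x => ∑ i, ∑ j, |C.Γ (g n i) (g n j) x - C.Γ (f i) (f j) x| with hΦ
  have hint : ∀ n i j, Integrable (fun x => |C.Γ (g n i) (g n j) x - C.Γ (f i) (f j) x|) m :=
    fun n i j => ((int_of_mem (hD.Γ_mem1 (hgW n i) (hgW n j))).sub
      (int_of_mem (hD.Γ_mem1 (hf i) (hf j)))).abs
  have hΦi : ∀ n, Integrable (Φ n) m := fun n =>
    integrable_finset_sum _ fun i _ => integrable_finset_sum _ fun j _ => hint n i j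
  have hΦ0 : ∀ n x, 0 ≤ Φ n x := fun n x =>
    Finset.sum_nonneg fun i _ => Finset.sum_nonneg fun j _ => abs_nonneg _
  have hΦl : Tendsto (fun n => ∫ x, Φ n x ∂m) atTop (𝓝 0) := by
    have e : ∀ n, ∫ x, Φ n x ∂m = ∑ i, ∑ j, ∫ x, |C.Γ (g n i) (g n j) x - C.Γ (f i) (f j) x| ∂m := by
      intro n
      rw [hΦ]
      simp only []
      rw [integral_finset_sum _ fun i _ => integrable_finset_sum _ fun j _ => hint n i j]
      exact Finset.sum_congr rfl fun i _ => integral_finset_sum _ fun j _ => hint n i j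
    simp only [e]
    have := tendsto_finset_sum Finset.univ (fun i (_ : i ∈ Finset.univ) =>
      tendsto_finset_sum Finset.univ (fun j (_ : j ∈ Finset.univ) => hpl i j))
    simpa using this
  have hme : TendstoInMeasure m Φ atTop (fun _ => (0 : ℝ)) := by
    refine tendstoInMeasure_of_tendsto_eLpNorm (p := 1) one_ne_zero (fun n => (hΦi n).1)
      aestronglyMeasurable_const ?_
    have e : ∀ n, eLpNorm (Φ n - fun _ => (0 : ℝ)) 1 m = ENNReal.ofReal (∫ x, Φ n x ∂m) := by
      intro n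
      rw [eLpNorm_one_eq_lintegral_enorm]
      rw [ofReal_integral_eq_lintegral_ofReal (hΦi n) (Eventually.of_forall (hΦ0 n))]
      refine lintegral_congr fun x => ?_
      simp only [Pi.sub_apply, sub_zero]
      rw [Real.enorm_eq_ofReal (hΦ0 n x)]
    simp only [e]
    have := ENNReal.tendsto_ofReal hΦl
    simpa using this
  obtain ⟨ns, hns, hae⟩ := hme.exists_seq_tendsto_ae
  refine ⟨fun n => g (ns n), fun n i => hg1 _ _, ?_⟩
  filter_upwards [hae] with x hx
  intro i j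
  rw [tendsto_iff_dist_tendsto_zero]
  refine squeeze_zero (fun n => dist_nonneg) (fun n => ?_) hx
  rw [Real.dist_eq]
  have h1 : |C.Γ (g (ns n) i) (g (ns n) j) x - C.Γ (f i) (f j) x|
      ≤ ∑ j, |C.Γ (g (ns n) i) (g (ns n) j) x - C.Γ (f i) (f j) x| :=
    Finset.single_le_sum (f := fun j => |C.Γ (g (ns n) i) (g (ns n) j) x - C.Γ (f i) (f j) x|)
      (fun _ _ => abs_nonneg _) (Finset.mem_univ j)
  refine h1.trans ?_
  exact Finset.single_le_sum (f := fun i => ∑ j, |C.Γ (g (ns n) i) (g (ns n) j) x - C.Γ (f i) (f j) x|)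
    (fun _ _ => Finset.sum_nonneg fun _ _ => abs_nonneg _) (Finset.mem_univ i)

/-- (A5) RANK: the Gram determinant of `k > N` Sobolev functions vanishes a.e. -/
theorem rank_det [SigmaFinite m] {k : ℕ} (hk : N < k) {f : Fin k → M →ₘ[m] ℝ}
    (hf : ∀ i, f i ∈ C.W) :
    ∀ᵐ x ∂m, (Matrix.of fun a b => C.Γ (f a) (f b) x : Matrix (Fin k) (Fin k) ℝ).det = 0 := by
  obtain ⟨g, hg, hae⟩ := exists_ae_seq hC hN hB hf
  have h1 : ∀ᵐ x ∂m, ∀ n,
      (Matrix.of fun a b => C.Γ (g n a) (g n b) x : Matrix (Fin k) (Fin k) ℝ).det = 0 := by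
    rw [ae_all_iff]
    intro n
    have h2 := rank_test hC hN hB hk (hg n)
    have h3 := det_ae (Matrix.of fun a b => C.Γ (g n a) (g n b) :
      Matrix (Fin k) (Fin k) (M →ₘ[m] ℝ))
    rw [h2] at h3
    filter_upwards [h3, zero_ae (M := M) (m := m)] with x a1 a2
    rw [a2] at a1
    exact a1.symm
  filter_upwards [h1, hae] with x h2 h3
  have hc : Continuous fun A : Matrix (Fin k) (Fin k) ℝ => A.det := continuous_id.matrix_det
  have ht : Tendsto (fun n => (Matrix.of fun a b => C.Γ (g n a) (g n b) x :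
      Matrix (Fin k) (Fin k) ℝ)) atTop (𝓝 (Matrix.of fun a b => C.Γ (f a) (f b) x)) := by
    refine tendsto_pi_nhds.2 fun i => tendsto_pi_nhds.2 fun j => h3 i j
  have h4 := (hc.tendsto _).comp ht
  simp only [Function.comp_def, h2] at h4
  exact (tendsto_nhds_unique h4 tendsto_const_nhds)

end

/-! ### the corollary used in the decay lemma -/

/-- If the Gram matrix of `v₀ = f` and `v₁, …, v_n` is singular and the Gram matrix `A` of
`v₁, …, v_n` is close to the identity then `|f|² ≤ 2 ∑ ⟨f,v_a⟩²`. -/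
theorem gram_bound {n : ℕ} {A : Matrix (Fin n) (Fin n) ℝ} {v : Fin n → ℝ} {c : ℝ}
    {G : Matrix (Fin (n + 1)) (Fin (n + 1)) ℝ} (h00 : G 0 0 = c) (h0 : ∀ a, G 0 a.succ = v a)
    (h0' : ∀ a, G a.succ 0 = v a) (hGA : ∀ a b, G a.succ b.succ = A a b)
    (hA : ∀ a b, |A a b - if a = b then 1 else 0| ≤ 1 / (4 * n)) (hdet : G.det = 0) :
    c ≤ 2 * ∑ a, v a ^ 2 := by
  obtain ⟨w, hw0, hw⟩ := Matrix.exists_mulVec_eq_zero_iff.2 hdet
  set β := w 0 with hβ
  set α : Fin n → ℝ := fun a => w a.succ with hα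
  have r0 : c * β + ∑ a, v a * α a = 0 := by
    have := congrFun hw 0
    rw [Matrix.mulVec, dotProduct, Fin.sum_univ_succ, h00] at this
    simp only [h0] at this
    exact this
  have r1 : ∀ a, v a * β + ∑ b, A a b * α b = 0 := by
    intro a
    have := congrFun hw a.succ
    rw [Matrix.mulVec, dotProduct, Fin.sum_univ_succ, h0'] at this
    simp only [hGA] at this
    exact this
  -- the form `A` is bounded below
  have hq : ∑ a, ∑ b, A a b * α b * α a ≥ 3 / 4 * ∑ a, α a ^ 2 := by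
    have e : ∑ a, ∑ b, A a b * α b * α a = ∑ a, α a ^ 2
        + ∑ a, ∑ b, (A a b - if a = b then 1 else 0) * α b * α a := by
      rw [← Finset.sum_add_distrib]
      refine Finset.sum_congr rfl fun a _ => ?_
      have : ∑ b, (A a b - if a = b then 1 else 0) * α b * α a
          = ∑ b, A a b * α b * α a - α a ^ 2 := by
        simp only [sub_mul, Finset.sum_sub_distrib]
        congr 1
        simp [sq]
      rw [this]; ring
    have hb : |∑ a, ∑ b, (A a b - if a = b then 1 else 0) * α b * α a|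
        ≤ 1 / 4 * ∑ a, α a ^ 2 := by
      rcases Nat.eq_zero_or_pos n with hn | hn
      · subst hn; simp
      have hn' : (0 : ℝ) < n := by exact_mod_cast hn
      calc |∑ a, ∑ b, (A a b - if a = b then 1 else 0) * α b * α a|
          ≤ ∑ a, ∑ b, |(A a b - if a = b then 1 else 0) * α b * α a| :=
            (Finset.abs_sum_le_sum_abs _ _).trans
              (Finset.sum_le_sum fun a _ => Finset.abs_sum_le_sum_abs _ _)
        _ ≤ ∑ a, ∑ b, 1 / (4 * n) * (|α b| * |α a|) := by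
            refine Finset.sum_le_sum fun a _ => Finset.sum_le_sum fun b _ => ?_
            rw [abs_mul, abs_mul, mul_assoc]
            exact mul_le_mul_of_nonneg_right (hA a b) (by positivity)
        _ = 1 / (4 * n) * (∑ a, |α a|) ^ 2 := by
            simp only [← Finset.mul_sum, ← Finset.sum_mul]
            ring
        _ ≤ 1 / (4 * n) * (n * ∑ a, α a ^ 2) := by
            refine mul_le_mul_of_nonneg_left ?_ (by positivity)
            have := Finset.sum_mul_sq_le_sq_mul_sq Finset.univ (fun _ => (1 : ℝ)) (fun a => |α a|)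
            simpa using this
        _ = 1 / 4 * ∑ a, α a ^ 2 := by field_simp
    rw [e]
    have := (abs_le.1 hb).1
    linarith
  by_cases hβ0 : β = 0
  · exfalso
    have z : ∑ a, ∑ b, A a b * α b * α a = 0 := by
      refine Finset.sum_eq_zero fun a _ => ?_
      rw [← Finset.sum_mul]
      have := r1 a
      rw [hβ0] at this
      have h2 : ∑ b, A a b * α b = 0 := by linarith
      rw [h2, zero_mul]
    rw [z] at hq
    have h2 : ∑ a, α a ^ 2 ≤ 0 := by linarith
    have h3 : ∀ a, α a = 0 := by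
      intro a
      have h4 := Finset.sum_nonneg (fun a (_ : a ∈ Finset.univ) => sq_nonneg (α a))
      have h5 : ∑ a, α a ^ 2 = 0 := le_antisymm h2 h4
      have h6 := (Finset.sum_eq_zero_iff_of_nonneg (fun a _ => sq_nonneg (α a))).1 h5 a
        (Finset.mem_univ a)
      simpa using h6
    apply hw0
    funext i
    refine Fin.cases ?_ (fun a => ?_) i
    · exact hβ0
    · exact h3 a
  · -- normalise
    have e1 : ∑ a, ∑ b, A a b * α b * α a = -β * ∑ a, v a * α a := by
      rw [Finset.mul_sum]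
      refine Finset.sum_congr rfl fun a _ => ?_
      rw [← Finset.sum_mul]
      have : ∑ b, A a b * α b = -(v a * β) := by linarith [r1 a]
      rw [this]; ring
    have e2 : ∑ a, v a * α a = -(c * β) := by linarith
    rw [e1, e2] at hq
    -- hq : c β² ≥ 3/4 |α|²
    have cs : (∑ a, v a * α a) ^ 2 ≤ (∑ a, v a ^ 2) * ∑ a, α a ^ 2 :=
      Finset.sum_mul_sq_le_sq_mul_sq _ _ _
    rw [e2] at cs
    have hβ2 : 0 < β ^ 2 := by positivity
    have hV : 0 ≤ ∑ a, v a ^ 2 := Finset.sum_nonneg fun _ _ => sq_nonneg _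
    by_contra hcon
    push Not at hcon
    have hc0 : 0 < c := by linarith
    have h3 : (∑ a, v a ^ 2) * ∑ a, α a ^ 2 ≤ (∑ a, v a ^ 2) * (4 / 3 * (c * β ^ 2)) := by
      refine mul_le_mul_of_nonneg_left ?_ hV
      nlinarith
    have h4 : (c * β ^ 2) * c ≤ (c * β ^ 2) * (4 / 3 * ∑ a, v a ^ 2) := by nlinarith
    have h5 := le_of_mul_le_mul_left h4 (mul_pos hc0 hβ2)
    linarith

section
variable (hC : IsGamma C) {κ : ℝ} {n : ℕ} (hn : 0 < n) (hB : C.BE κ n)

include hC hn hB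

/-- the corollary of RANK used in A6 -/
theorem full_frame [SigmaFinite m] {f : M →ₘ[m] ℝ} (hf : f ∈ C.W) {u : Fin n → M →ₘ[m] ℝ}
    (hu : ∀ a, u a ∈ C.W) :
    ∀ᵐ x ∂m, (∀ a b, |C.Γ (u a) (u b) x - if a = b then 1 else 0| ≤ 1 / (4 * n)) →
      C.Γ f f x ≤ 2 * ∑ a, C.Γ f (u a) x ^ 2 := by
  set F : Fin (n + 1) → M →ₘ[m] ℝ := Fin.cons f u with hF
  have hFW : ∀ i, F i ∈ C.W := by
    intro i
    refine Fin.cases ?_ (fun a => ?_) i
    · exact hf
    · exact hu a
  have hs : ∀ a, C.Γ (u a) f = C.Γ f (u a) := fun a => hC.symm _ (hu a) _ hf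
  have h1 := rank_det hC (N := n) (by exact_mod_cast hn) hB (k := n + 1) (by push_cast; linarith) hFW
  filter_upwards [h1] with x hx hx2
  refine gram_bound (A := Matrix.of fun a b => C.Γ (u a) (u b) x) (v := fun a => C.Γ f (u a) x)
    (G := Matrix.of fun a b => C.Γ (F a) (F b) x) rfl (fun a => rfl) (fun a => ?_)
    (fun a b => rfl) hx2 hx
  show C.Γ (u a) f x = C.Γ f (u a) x
  rw [hs a]

end

end Vale.Agent.P242.H200
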